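import Vale.Agent.P119S.Stm

/-! The closing estimate. -/

open MeasureTheory Filter Topology Set
open scoped InnerProductSpace

namespace Vale.Agent.P119

namespace RAlgAux

theorem wcont {a b : ℝ} (ha : 0 < a) (hb : 0 < b) :
    Continuous fun s : ℝ => 2 * a * s / (b + a * s ^ 2) ^ 2 :=
  Continuous.div (by fun_prop) (by fun_prop) fun s => by positivity

theorem wcont' {a b : ℝ} (ha : 0 < a) (hb : 0 < b) (η : ℝ) :
    Continuous fun s : ℝ => 2 * a * s / (b + a * s ^ 2) / η :=
  (Continuous.div (by fun_prop) (by fun_prop) fun s => by positivity).div_const η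

theorem wint {a b : ℝ} (ha : 0 < a) (hb : 0 < b) (t : ℝ) :
    ∫ s in (0 : ℝ)..t, 2 * a * s / (b + a * s ^ 2) ^ 2 = 1 / b - 1 / (b + a * t ^ 2) := by
  have h : ∀ s ∈ uIcc (0 : ℝ) t, HasDerivAt (fun s : ℝ => -(b + a * s ^ 2)⁻¹)
      (2 * a * s / (b + a * s ^ 2) ^ 2) s := by
    intro s _
    have h1 : HasDerivAt (fun s : ℝ => b + a * s ^ 2) (a * (2 * s)) s := by
      simpa using ((hasDerivAt_pow 2 s).const_mul a).const_add b
    have h2 := (h1.fun_inv (by positivity)).fun_neg
    refine h2.congr_deriv ?_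
    ring
  rw [intervalIntegral.integral_eq_sub_of_hasDerivAt h ((wcont ha hb).intervalIntegrable _ _)]
  simp only [one_div]
  ring

theorem ybd {B b k K y l d : ℝ} (hB : 0 ≤ B) (hb : 0 < b) (hk : b ≤ k) (hK : k ≤ K) (hl : 0 ≤ l)
    (hd : 0 ≤ d) (h : (8 * B * K + 1) * y ≤ 2 * (l + d)) : 2 * B * y ≤ l / b / 2 + d / k / 2 := by
  have hk0 : 0 < k := hb.trans_le hk
  have hK0 : 0 < K := hk0.trans_le hK
  rcases le_or_gt y 0 with hy | hy
  · exact (mul_nonpos_of_nonneg_of_nonpos (by positivity) hy).trans (by positivity)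
  · have h1 : 4 * B * y ≤ (l + d) / K := by
      rw [le_div_iff₀ hK0]
      linarith
    have h2 : l / K ≤ l / b := div_le_div_of_nonneg_left hl hb (hk.trans hK)
    have h3 : d / K ≤ d / k := div_le_div_of_nonneg_left hd hk0 hK
    rw [add_div] at h1
    linarith

end RAlgAux

open RAlgAux in
theorem r_alg (hgron : R_gron) : R_alg := by
  intro a b B η T ha hb hB hη
  refine ⟨8 * B * (b + a * T ^ 2) + 1,
    2 * (b + a * T ^ 2) * Real.exp ((2 * a * |T| / b / η + 1) * |T|) / b, by positivity,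
    by positivity, fun q u y h l M hh hl H => ?_⟩
  have hc : 0 < 2 * a * |T| / b / η + 1 := by positivity
  have hcw : ∀ s, 0 ≤ s → s ≤ T → 2 * a * s / (b + a * s ^ 2) / η ≤ 2 * a * |T| / b / η + 1 := by
    intro s hs hsT
    have h1 : b ≤ b + a * s ^ 2 := le_add_of_nonneg_right (by positivity)
    have h2 : s ≤ |T| := hsT.trans (le_abs_self T)
    refine le_trans ?_ (le_add_of_nonneg_right zero_le_one)
    gcongr
  generalize 2 * a * |T| / b / η + 1 = c at hc hcw ⊢
  have hkT : ∀ t, 0 ≤ t → t ≤ T → b + a * t ^ 2 ≤ b + a * T ^ 2 := fun t ht htT => by gcongr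
  have key : ∀ t, 0 ≤ t → t ≤ T → (h + (q t - q 0)) / (b + a * t ^ 2) / 2 + 2 * u t ≤
      (h / b + l / b / 2) + c * ∫ s in (0 : ℝ)..t, u s := by
    intro t ht htT
    obtain ⟨i1, i2, -, -, h3, h4, h5⟩ := H t ht htT
    have h6 : ∫ s in (0 : ℝ)..t, 2 * a * s / (b + a * s ^ 2) ^ 2 * (q 0 - h) ≤
        ∫ s in (0 : ℝ)..t, 2 * a * s / (b + a * s ^ 2) ^ 2 * q s :=
      intervalIntegral.integral_mono_on ht
        (((wcont ha hb).mul continuous_const).intervalIntegrable _ _)
        (i1.continuousOn_mul (wcont ha hb).continuousOn) fun s hs =>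
        mul_le_mul_of_nonneg_left (by linarith [(H s hs.1 (hs.2.trans htT)).2.2.2.2.1])
          (by have := hs.1; positivity)
    rw [intervalIntegral.integral_mul_const, wint ha hb] at h6
    have h7 : ∫ s in (0 : ℝ)..t, 2 * a * s / (b + a * s ^ 2) / η * u s ≤
        ∫ s in (0 : ℝ)..t, c * u s :=
      intervalIntegral.integral_mono_on ht (i2.continuousOn_mul (wcont' ha hb η).continuousOn)
        (i2.const_mul c) fun s hs => mul_le_mul_of_nonneg_right (hcw s hs.1 (hs.2.trans htT))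
          (H s hs.1 (hs.2.trans htT)).2.2.1
    rw [intervalIntegral.integral_const_mul] at h7
    have h8 := ybd (y := y t) (d := h + (q t - q 0)) hB hb
      (le_add_of_nonneg_right (by positivity : 0 ≤ a * t ^ 2)) (hkT t ht htT) hl (by linarith)
      (by linarith)
    have e : (1 / b - 1 / (b + a * t ^ 2)) * (q 0 - h) = q 0 / b - h / b -
        (q t / (b + a * t ^ 2) - (h + (q t - q 0)) / (b + a * t ^ 2)) := by ring
    linarith
  have hd : ∀ t, 0 ≤ t → t ≤ T → 0 ≤ h + (q t - q 0) := fun t ht htT => by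
    linarith [(H t ht htT).2.2.2.2.1]
  have hR : 0 ≤ h / b + l / b / 2 := by positivity
  intro t ht htT
  have h1 := hgron u (h / b + l / b / 2) c M T hR hc (fun t ht htT =>
    ⟨(H t ht htT).2.1, (H t ht htT).2.2.2.1, by
      have := hd t ht htT
      have h0 : 0 ≤ (h + (q t - q 0)) / (b + a * t ^ 2) / 2 := by positivity
      linarith [key t ht htT]⟩) t ht htT
  have hk : 0 < b + a * t ^ 2 := by positivity
  have h2 : (h + (q t - q 0)) / (b + a * t ^ 2) ≤ 2 * ((h / b + l / b / 2) * Real.exp (c * t)) := by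
    linarith [key t ht htT, (H t ht htT).2.2.1]
  rw [div_le_iff₀ hk] at h2
  have h3 : h / b + l / b / 2 ≤ (h + l) / b := by
    have : 0 ≤ l / b := by positivity
    rw [add_div]
    linarith
  have h4 : t ≤ |T| := htT.trans (le_abs_self T)
  have h5 := hkT t ht htT
  calc q t - q 0 ≤ 2 * ((h / b + l / b / 2) * Real.exp (c * t)) * (b + a * t ^ 2) := by linarith
    _ ≤ 2 * ((h + l) / b * Real.exp (c * |T|)) * (b + a * T ^ 2) := by gcongr
    _ = _ := by ring

end Vale.Agent.P119
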