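import Vale.Agent.P119S.Stm

open MeasureTheory Filter Topology Set
open scoped InnerProductSpace

namespace Vale.Agent.P119

namespace RCtlAux

theorem yc_nonneg {n : ℕ} (x : Fin n → E3) : 0 ≤ Yc x := by
  unfold Yc
  exact Finset.sum_nonneg fun i _ =>
    le_min zero_le_one (Finset.sum_nonneg fun j _ => le_max_left _ _)

theorem pair_sub (Φ Ψ : E3 → ℝ) (η : ℝ) {n : ℕ} (x : Fin n → E3) :
    pairSum (fun y => Φ y - η * Ψ y) x = pairSum Φ x - η * pairSum Ψ x := by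
  unfold pairSum
  simp only [Finset.sum_sub_distrib, Finset.mul_sum]

theorem cont_grad {Φ : E3 → ℝ} (h : ContDiff ℝ 2 Φ) : Continuous (gradient Φ) := by
  have h1 : Continuous (fderiv ℝ Φ) := h.continuous_fderiv (by norm_num)
  exact (InnerProductSpace.toDual ℝ E3).symm.continuous.comp h1

end RCtlAux

theorem r_ctl (hpot : R_pot) (hsub : R_sub) (hvir : R_vir) : R_ctl := by
  intro Φ hΦ hv
  obtain ⟨η, hη, hst⟩ := hv
  obtain ⟨-, -, hg, -, -⟩ := hpot Φ hΦ
  obtain ⟨B1, hB1, h1⟩ := hsub Φ hΦ.2.2.2.2 fun y hy => hΦ.2.2.1 y hy.le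
  obtain ⟨B2, hB2, h2⟩ := hsub _ hst fun y hy => by
    simp only [hΦ.2.2.1 y hy.le, hg y hy, inner_zero_right, mul_zero, sub_zero]
  refine ⟨B1 + B2, η, by linarith, hη, fun ε n z hε hz => ?_⟩
  obtain ⟨v1, -, v3, -⟩ := hvir Φ ε n hΦ hε
  have hinj : (∀ i j, i ≠ j → (z i).1 ≠ (z j).1) →
      Function.Injective (fun i => ε⁻¹ • (z i).1) := fun h i j hij => by
    by_contra hne
    exact h i j hne (smul_right_injective E3 (inv_ne_zero hε.ne') hij)
  have a1 := h1 n (fun i => ε⁻¹ • (z i).1) (hz.imp (fun h => h.continuous) hinj)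
  have a2 := h2 n (fun i => ε⁻¹ • (z i).1) (hz.imp (fun h =>
    h.continuous.sub (continuous_const.mul (continuous_id.inner (RCtlAux.cont_grad h)))) hinj)
  rw [RCtlAux.pair_sub Φ (fun y => ⟪y, gradient Φ y⟫_ℝ)] at a2
  have y0 := RCtlAux.yc_nonneg (fun i => ε⁻¹ • (z i).1)
  have e := v1 (fun j => (z j).1)
  unfold Ut Yn
  rw [v3 z, e, le_div_iff₀ hη]
  have p1 := mul_nonneg hB1 y0
  have p2 := mul_nonneg hB2 y0
  constructor <;> nlinarith

end Vale.Agent.P119
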