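import Vale.Agent.P119S.Stm

open MeasureTheory Filter Topology Set
open scoped InnerProductSpace

namespace Vale.Agent.P119

namespace RDUAux

theorem chain {Φ : E3 → ℝ} {y : ℝ → E3} {w : E3} {t : ℝ} (h : DifferentiableAt ℝ Φ (y t))
    (hy : HasDerivAt y w t) : HasDerivAt (fun s => Φ (y s)) ⟪gradient Φ (y t), w⟫_ℝ t := by
  have e := h.hasGradientAt.hasFDerivAt.comp_hasDerivAt t hy
  rw [InnerProductSpace.toDual_apply_apply] at e
  exact e

theorem swap {n : ℕ} (g : Fin n → Fin n → E3) (v : Fin n → E3) (hg : ∀ i j, g j i = -g i j) :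
    ∑ i, ∑ j ∈ Finset.univ.erase i, ⟪g i j, v j⟫_ℝ =
      -∑ i, ∑ j ∈ Finset.univ.erase i, ⟪g i j, v i⟫_ℝ := by
  rw [Finset.sum_comm' (t' := Finset.univ) (s' := fun j => Finset.univ.erase j)
    (fun i j => by simp [eq_comm]), ← Finset.sum_neg_distrib]
  refine Finset.sum_congr rfl fun j _ => ?_
  rw [← Finset.sum_neg_distrib]
  refine Finset.sum_congr rfl fun i _ => ?_
  rw [hg j i, inner_neg_left]

theorem alg {n : ℕ} (g : Fin n → Fin n → E3) (v : Fin n → E3) (c : ℝ)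
    (hg : ∀ i j, g j i = -g i j) :
    (1 / 2 : ℝ) * ∑ i, ∑ j ∈ Finset.univ.erase i, ⟪g i j, c • (v i - v j)⟫_ℝ =
      -∑ i, ⟪v i, -(c • ∑ j ∈ Finset.univ.erase i, g i j)⟫_ℝ := by
  have e1 : ∑ i, ∑ j ∈ Finset.univ.erase i, ⟪g i j, c • (v i - v j)⟫_ℝ =
      c * (∑ i, ∑ j ∈ Finset.univ.erase i, ⟪g i j, v i⟫_ℝ -
        ∑ i, ∑ j ∈ Finset.univ.erase i, ⟪g i j, v j⟫_ℝ) := by
    rw [← Finset.sum_sub_distrib, Finset.mul_sum]
    refine Finset.sum_congr rfl fun i _ => ?_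
    rw [← Finset.sum_sub_distrib, Finset.mul_sum]
    refine Finset.sum_congr rfl fun j _ => ?_
    rw [real_inner_smul_right, inner_sub_right]
  have e2 : ∑ i, ⟪v i, -(c • ∑ j ∈ Finset.univ.erase i, g i j)⟫_ℝ =
      -(c * ∑ i, ∑ j ∈ Finset.univ.erase i, ⟪g i j, v i⟫_ℝ) := by
    rw [Finset.mul_sum, ← Finset.sum_neg_distrib]
    refine Finset.sum_congr rfl fun i _ => ?_
    rw [inner_neg_right, real_inner_smul_right, real_inner_comm, sum_inner]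
  rw [e1, e2, swap g v hg]
  ring

end RDUAux

theorem r_dU (hpot : R_pot) : R_dU := by
  intro Φ ε n γ hΦ hε hN t
  obtain ⟨h1, h2, -⟩ := hpot Φ hΦ
  have hd : ∀ i, ∀ j ∈ Finset.univ.erase i,
      HasDerivAt (fun s => Φ (ε⁻¹ • ((γ s i).1 - (γ s j).1)))
        ⟪gradient Φ (ε⁻¹ • ((γ t i).1 - (γ t j).1)), ε⁻¹ • ((γ t i).2 - (γ t j).2)⟫_ℝ t := by
    intro i j hj
    refine RDUAux.chain (y := fun s => ε⁻¹ • ((γ s i).1 - (γ s j).1)) (h1 _ ?_)
      (((hN.2 t i).1.sub (hN.2 t j).1).const_smul ε⁻¹)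
    refine hN.1.imp_right fun h => smul_ne_zero (inv_ne_zero hε.ne') (sub_ne_zero.2 ?_)
    exact h t i j (Finset.ne_of_mem_erase hj).symm
  have e := (HasDerivAt.fun_sum fun i (_ : i ∈ Finset.univ) =>
    HasDerivAt.fun_sum (hd i)).const_mul (1 / 2 : ℝ)
  rw [RDUAux.alg (fun i j => gradient Φ (ε⁻¹ • ((γ t i).1 - (γ t j).1))) (fun i => (γ t i).2) ε⁻¹
    fun i j => by rw [← h2, ← smul_neg, neg_sub]] at e
  exact e

end Vale.Agent.P119
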