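import Vale.Agent.P119.Defs2

/-! Stable potentials with attractive parts. -/

open MeasureTheory Filter Topology Set
open scoped InnerProductSpace

namespace Vale.Agent.P119

/-- Sum of a pair function over all ordered pairs of distinct labels. -/
noncomputable def pairSum (Ψ : E3 → ℝ) {n : ℕ} (x : Fin n → E3) : ℝ :=
  ∑ i, ∑ j ∈ Finset.univ.erase i, Ψ (x i - x j)

/-- Stability of a pair function. -/
def Stable (Ψ : E3 → ℝ) : Prop :=
  ∃ B : ℝ, ∀ (n : ℕ) (x : Fin n → E3), Function.Injective x → -(B * n) ≤ pairSum Ψ x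

/-- Stable radial potentials of range one, smooth or blowing up monotonically at the origin. -/
def IsAdm (Φ : E3 → ℝ) : Prop :=
  (∀ x y, ‖x‖ = ‖y‖ → Φ x = Φ y) ∧ ContDiffOn ℝ 2 Φ {0}ᶜ ∧ (∀ x, 1 ≤ ‖x‖ → Φ x = 0) ∧
    (ContDiff ℝ 2 Φ ∨
      (Tendsto Φ (𝓝[≠] 0) atTop ∧ ∀ᶠ x in 𝓝[≠] (0 : E3), ⟪x, gradient Φ x⟫_ℝ ≤ 0)) ∧ Stable Φ

/-- Repulsive potentials. -/
def Repulsive (Φ : E3 → ℝ) : Prop := ∀ x, x ≠ 0 → ⟪x, gradient Φ x⟫_ℝ ≤ 0

/-- Superstable potentials: still stable after subtracting a positive step of range one. -/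
def Superstable (Φ : E3 → ℝ) : Prop :=
  ∃ A : ℝ, 0 < A ∧ Stable (fun x => Φ x - if ‖x‖ ≤ 1 then A else 0)

/-- Potentials that stay stable after subtracting a small multiple of the virial. -/
def VirialStable (Φ : E3 → ℝ) : Prop :=
  ∃ η : ℝ, 0 < η ∧ Stable (fun x => Φ x - η * ⟪x, gradient Φ x⟫_ℝ)

end Vale.Agent.P119
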