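import Vale.Agent.P119S.Stm

/-! Lower bounds extend from distinct points to all configurations. -/

open MeasureTheory Filter Topology Set
open scoped InnerProductSpace

namespace Vale.Agent.P119

theorem r_dens : R_dens := by
  intro Ψ B n hΨ h x
  obtain ⟨v, hv⟩ := exists_ne (0 : E3)
  obtain ⟨y, hy⟩ : ∃ y : ℝ → Fin n → E3, ∀ d i, y d i = x i + (d * (i : ℕ)) • v :=
    ⟨fun d i => x i + (d * (i : ℕ)) • v, fun _ _ => rfl⟩
  have hc : ∀ i, Continuous (fun d => y d i) := by
    intro i
    simp only [hy]
    fun_prop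
  have h0 : y 0 = x := by
    funext i
    simp [hy]
  have hp : Continuous (fun d => pairSum Ψ (y d)) := by
    unfold pairSum
    exact continuous_finsetSum _ fun i _ => continuous_finsetSum _ fun j _ =>
      hΨ.comp ((hc i).sub (hc j))
  have ht : Tendsto (fun d => pairSum Ψ (y d)) (𝓝[≠] 0) (𝓝 (pairSum Ψ x)) := by
    have := hp.tendsto 0
    rw [h0] at this
    exact this.mono_left nhdsWithin_le_nhds
  refine ge_of_tendsto ht ?_
  have hev : ∀ i j : Fin n, ∀ᶠ d in 𝓝[≠] (0 : ℝ), y d i = y d j → i = j := by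
    intro i j
    by_cases hx : x i = x j
    · filter_upwards [self_mem_nhdsWithin] with d hd e
      rw [hy, hy, hx, add_right_inj] at e
      have e2 := smul_left_injective ℝ hv e
      have e3 : ((i : ℕ) : ℝ) = (j : ℕ) := mul_left_cancel₀ hd e2
      exact Fin.ext (by exact_mod_cast e3)
    · have h1 : ∀ᶠ d in 𝓝 (0 : ℝ), y d i - y d j ≠ 0 := by
        refine (((hc i).sub (hc j)).tendsto 0).eventually_ne ?_
        change y 0 i - y 0 j ≠ 0
        rw [h0]
        exact sub_ne_zero.2 hx
      filter_upwards [nhdsWithin_le_nhds h1] with d hd e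
      exact absurd (sub_eq_zero.2 e) hd
  filter_upwards [eventually_all.2 fun i => eventually_all.2 (hev i)] with d hd
  exact h _ fun i j e => hd i j e

end Vale.Agent.P119
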