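import Vale.Agent.P119S.Stm

/-! Pathwise domination of the quadratic form and of the corrected energy. -/

open MeasureTheory Filter Topology Set
open scoped InnerProductSpace

namespace Vale.Agent.P119

namespace RDomAux

theorem qn0 (a b t : ℝ) (ha : 0 < a) (hb : 0 < b) {n : ℕ} (z : Cfg n) : 0 ≤ Qn a b t z :=
  Finset.sum_nonneg fun _ _ => by positivity

theorem int_le (a b η T s U : ℝ) (u : ℝ → ℝ) (ha : 0 < a) (hb : 0 < b) (hη : 0 < η)
    (h0 : 0 ≤ s) (hT : s ≤ T) (hu : ∀ r, 0 ≤ u r ∧ u r ≤ U) :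
    ∫ r in (0 : ℝ)..s, 2 * a * r / (b + a * r ^ 2) / η * u r ≤ 2 * a * T ^ 2 / b / η * U := by
  have hU : 0 ≤ U := (hu 0).1.trans (hu 0).2
  have T0 : 0 ≤ T := h0.trans hT
  have h := intervalIntegral.norm_integral_le_of_norm_le_const (a := 0) (b := s)
    (C := 2 * a * T / b / η * U) (f := fun r => 2 * a * r / (b + a * r ^ 2) / η * u r)
    (fun r hr => by
      rw [uIoc_of_le h0] at hr
      have r0 := hr.1.le
      have r1 := hr.2.trans hT
      have u0 := (hu r).1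
      have u1 := (hu r).2
      have d1 : b ≤ b + a * r ^ 2 := le_add_of_nonneg_right (by positivity)
      rw [Real.norm_of_nonneg (by positivity)]
      gcongr)
  rw [sub_zero, abs_of_nonneg h0] at h
  refine (le_abs_self _).trans (h.trans ?_)
  calc 2 * a * T / b / η * U * s ≤ 2 * a * T / b / η * U * T := by gcongr
    _ = 2 * a * T ^ 2 / b / η * U := by ring

end RDomAux

theorem r_dom (hpath : R_path) (hY : R_Y) : R_dom := by
  intro Φ B η ε a b T n hΦ hC hε ha hb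
  have hB := hC.1
  have hη := hC.2.1
  obtain ⟨κ, hκ⟩ : ∃ κ, κ = 2 * a * T ^ 2 / b / η := ⟨_, rfl⟩
  have k0 : 0 ≤ κ := by rw [hκ]; positivity
  have hn : 0 ≤ B * n := by positivity
  refine ⟨(b + a * T ^ 2 + 1) * ((1 + κ) * (1 / b + 2 * (B * n))), by positivity,
    fun γ hγ h0 s s0 sT => ?_⟩
  obtain ⟨-, -, h3, h4⟩ := hpath Φ B η ε a b n γ hΦ hC hε ha hb hγ h0
  have q0 := RDomAux.qn0 a b 0 ha hb (γ 0)
  have i1 := RDomAux.int_le a b η T s _ (fun r => Ut Φ B ε (γ r)) ha hb hη s0 sT h3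
  have i2 : 0 ≤ ∫ r in (0 : ℝ)..s, 2 * a * r / (b + a * r ^ 2) ^ 2 * Qn a b r (γ r) :=
    intervalIntegral.integral_nonneg s0 fun r hr => by
      have r0 := hr.1
      have := RDomAux.qn0 a b r ha hb (γ r)
      positivity
  have y1 := mul_le_mul_of_nonneg_left ((hY ε n hε).2.1 (γ s)).2.1 hB
  have h5 := h4 s s0
  have u0 := (h3 s).1
  have u1 := (h3 s).2
  rw [← hκ] at i1
  generalize Qn a b 0 (γ 0) = Q at *
  have qb : 0 ≤ Q / b := by positivity
  obtain ⟨V, hV⟩ : ∃ V, V = (1 / b + 2 * (B * n)) * (Q + 1) := ⟨_, rfl⟩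
  have v1 : Q / b + 2 * (B * n) ≤ V := by
    have e : V = Q / b + 2 * (B * n) + (1 / b + 2 * (B * n) * Q) := by rw [hV]; ring
    have : 0 ≤ 1 / b + 2 * (B * n) * Q := by positivity
    linarith
  have v0 : 0 ≤ V := by linarith
  have v2 : κ * (Q / b + B * n) ≤ κ * V := mul_le_mul_of_nonneg_left (by linarith) k0
  have v3 : Qn a b s (γ s) / (b + a * s ^ 2) ≤ (1 + κ) * V := by linarith
  rw [div_le_iff₀ (by positivity)] at v3
  have e : (b + a * T ^ 2 + 1) * ((1 + κ) * (1 / b + 2 * (B * n))) * (Q + 1) =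
      (1 + κ) * V * (b + a * T ^ 2 + 1) := by rw [hV]; ring
  have w0 : 0 ≤ (1 + κ) * V := by positivity
  have w1 : a * s ^ 2 ≤ a * T ^ 2 := by gcongr
  have w2 : 0 ≤ a * T ^ 2 := by positivity
  have w3 : 0 ≤ κ * V := by positivity
  rw [e]
  constructor
  · exact v3.trans (mul_le_mul_of_nonneg_left (by linarith) w0)
  · exact le_trans (by linarith) (le_mul_of_one_le_right w0 (by linarith))

end Vale.Agent.P119
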