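import Vale.Agent.P119S.Stm

/-! Conservation of energy bounds the pair potential. -/

open MeasureTheory Filter Topology Set
open scoped InnerProductSpace

namespace Vale.Agent.P119

theorem r_en (hpot : R_pot) (hdU : R_dU) (hvir : R_vir) (hsdQ : S_dQ) : R_en := by
  intro Φ ε n hΦ hε
  obtain ⟨-, -, -, -, m, m0, hm⟩ := hpot Φ hΦ
  obtain ⟨-, v2, -⟩ := hvir Φ ε n hΦ hε
  refine ⟨∑ i : Fin n, ∑ _j ∈ Finset.univ.erase i, m, fun γ hN h0 t => ?_⟩
  have hd : ∀ s, HasDerivAt (fun s => Qn 0 1 s (γ s) + 2 * Un Φ ε (γ s)) 0 s := fun s => by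
    have h1 := hsdQ 0 1 n γ (force Φ ε fun j => (γ s j).1) s (hN.2 s)
    refine (h1.fun_add ((hdU Φ ε n γ hΦ hε hN s).const_mul 2)).congr_deriv ?_
    ring
  have hc := is_const_of_deriv_eq_zero (fun s => (hd s).differentiableAt) (fun s => (hd s).deriv) t 0
  have q0 : Qn 0 1 0 (γ 0) = ∑ k, ‖(γ 0 k).2‖ ^ 2 := by simp [Qn]
  have q1 : 0 ≤ Qn 0 1 t (γ t) := Finset.sum_nonneg fun k _ => by positivity
  simp only [v2 _ h0, q0] at hc
  refine ⟨by linarith, fun i j hij => ?_⟩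
  have p : ∀ a b : Fin n, 0 ≤ Φ (ε⁻¹ • ((γ t a).1 - (γ t b).1)) + m := fun a b => by
    linarith [hm (ε⁻¹ • ((γ t a).1 - (γ t b).1))]
  have h3 := (Finset.single_le_sum (fun b _ => p i b)
    (Finset.mem_erase.2 ⟨hij.symm, Finset.mem_univ j⟩)).trans (Finset.single_le_sum
      (f := fun a => ∑ b ∈ Finset.univ.erase a, (Φ (ε⁻¹ • ((γ t a).1 - (γ t b).1)) + m))
      (fun a _ => Finset.sum_nonneg fun b _ => p a b) (Finset.mem_univ i))
  simp only [Finset.sum_add_distrib] at h3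
  unfold Un at hc
  linarith

end Vale.Agent.P119
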