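import Vale.Agent.P119S.Stm

/-! The entropy bound for a measure contracting map. -/

open MeasureTheory Filter Topology Set
open scoped InnerProductSpace

namespace Vale.Agent.P119

theorem r_ent (hsg3 : S_g3) (hsent : S_ent) : R_ent := by
  intro c a b ε t n T hP hp hT hv i2 X M Λ hX hM hΛ
  obtain ⟨g1, g2, g3⟩ := hsg3 c a b n hP
  have e : ∀ (s : ℝ) (z : Cfg n), c ^ n * Real.exp (-Qn a b s z) = tens (gau c a b s) z :=
    fun s z => ((g1 s).2.2.1 z).symm
  have i0 : IntegrableOn (fun z : Cfg n => tens (gau c a b 0) z) (excl ε n) :=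
    (g1 0).2.2.2.1.integrableOn
  have i1 : IntegrableOn (fun z => X (T z) * tens (gau c a b 0) z) (excl ε n) :=
    Integrable.bdd_mul (c := M) i0 (hX.comp hT).aestronglyMeasurable
      (ae_of_all _ fun z => hM _)
  have i3 : IntegrableOn (fun z : Cfg n => Qn a b 0 z * tens (gau c a b 0) z) (excl ε n) :=
    g2.integrableOn
  have i4 : Integrable fun z => Real.exp (X z) * tens (gau c a b t) z :=
    Integrable.bdd_mul (c := Real.exp M) (g1 t).2.2.2.1 hX.exp.aestronglyMeasurable
      (ae_of_all _ fun z => by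
        rw [Real.norm_eq_abs, abs_of_pos (Real.exp_pos _)]
        exact Real.exp_le_exp.2 ((le_abs_self _).trans (hM z)))
  have i5 : IntegrableOn (fun z => X (T z) * tens (gau c a b 0) z -
      Qn a b t (T z) * tens (gau c a b 0) z) (excl ε n) := i1.sub i2
  have h := hsent (Cfg n) volume (excl ε n) T (Qn a b 0) (Qn a b t) X (c ^ n) Λ
    (g3 ε) hT (g1 t).1 hX (pow_pos hP.1 n) hv
  simp only [e, add_mul, sub_mul] at h
  have h1 := h i0 (i5.add i3) i4 hΛ hp
  rw [integral_add i5 i3, integral_sub i1 i2] at h1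
  change _ ≤ pn c a b ε n * (Λ - Real.log (pn c a b ε n)) at h1
  linarith

end Vale.Agent.P119
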