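import Vale.Agent.P119S.Stm

open MeasureTheory Filter Topology Set
open scoped InnerProductSpace

namespace Vale.Agent.P119

namespace RExpAux

theorem wsw (hswap : S_swap) {Ω : Type} [MeasurableSpace Ω] (m : Measure Ω) [SFinite m]
    {G : ℝ → Ω → ℝ} {D : Ω → ℝ} {w : ℝ → ℝ} {t : ℝ} (ht : 0 ≤ t) (hw : Continuous w)
    (hG : ∀ s, Measurable (G s)) (hD : Integrable D m)
    (h : ∀ᵐ z ∂m, Continuous (fun s => G s z) ∧ ∀ s, 0 ≤ s → s ≤ t → |G s z| ≤ D z) :
    Integrable (fun z => ∫ s in (0 : ℝ)..t, w s * G s z) m ∧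
      ∫ z, (∫ s in (0 : ℝ)..t, w s * G s z) ∂m = ∫ s in (0 : ℝ)..t, w s * ∫ z, G s z ∂m := by
  obtain ⟨C, hC⟩ := (isCompact_Icc (a := (0 : ℝ)) (b := t)).exists_bound_of_continuousOn
    hw.continuousOn
  obtain ⟨-, h2, h3⟩ := hswap Ω m (fun s z => w s * G s z) (fun z => C * D z) t ht
    (fun s => (hG s).const_mul _) (hD.const_mul _) (by
      filter_upwards [h] with z hz
      refine ⟨hw.mul hz.1, fun s hs hst => ?_⟩
      have e : |w s| ≤ C := hC s ⟨hs, hst⟩
      rw [abs_mul]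
      exact mul_le_mul e (hz.2 s hs hst) (abs_nonneg _) ((abs_nonneg _).trans e))
  simp only [integral_const_mul] at h3
  exact ⟨h2, h3⟩

theorem int {Ω : Type} [MeasurableSpace Ω] {m : Measure Ω} {g D : Ω → ℝ} (hg : Measurable g)
    (hD : Integrable D m) (h : ∀ᵐ z ∂m, |g z| ≤ D z) : Integrable g m :=
  hD.mono' hg.aestronglyMeasurable h

end RExpAux

theorem r_exp (hsswap : S_swap) : R_exp := by
  intro Ω _ m _ q u y D a b B η T ha hb hη hm hD hp t ht hT
  have hq : ∀ᵐ z ∂m, Continuous (fun s => q s z) ∧ ∀ s, 0 ≤ s → s ≤ t → |q s z| ≤ D z :=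
    hp.mono fun z hz => ⟨hz.1, fun s h1 h2 => (hz.2.2.1 s h1 (h2.trans hT)).1⟩
  have hu : ∀ᵐ z ∂m, Continuous (fun s => u s z) ∧ ∀ s, 0 ≤ s → s ≤ t → |u s z| ≤ D z :=
    hp.mono fun z hz => ⟨hz.2.1, fun s h1 h2 => (hz.2.2.1 s h1 (h2.trans hT)).2⟩
  have c1 : Continuous fun s : ℝ => 2 * a * s / (b + a * s ^ 2) ^ 2 :=
    Continuous.div (by fun_prop) (by fun_prop) fun s => by positivity
  have c2 : Continuous fun s : ℝ => 2 * a * s / (b + a * s ^ 2) / η :=
    (Continuous.div (by fun_prop) (by fun_prop) fun s => by positivity).div_const η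
  obtain ⟨a1, a2⟩ := RExpAux.wsw hsswap m ht c1 (fun s => (hm s).1) hD hq
  obtain ⟨b1, b2⟩ := RExpAux.wsw hsswap m ht c2 (fun s => (hm s).2.1) hD hu
  have iq : Integrable (q t) m := RExpAux.int (hm t).1 hD (hq.mono fun z hz => hz.2 t ht le_rfl)
  have i0 : Integrable (q 0) m := RExpAux.int (hm 0).1 hD (hq.mono fun z hz => hz.2 0 le_rfl ht)
  have iu : Integrable (u t) m := RExpAux.int (hm t).2.1 hD (hu.mono fun z hz => hz.2 t ht le_rfl)
  refine ⟨(hsswap Ω m q D t ht (fun s => (hm s).1) hD hq).1,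
    (hsswap Ω m u D t ht (fun s => (hm s).2.1) hD hu).1,
    integral_mono_ae iu hD (hu.mono fun z hz => (le_abs_self _).trans (hz.2 t ht le_rfl)), ?_⟩
  have l1 : Integrable (fun z => q t z / (b + a * t ^ 2) + 2 * u t z) m :=
    (iq.div_const _).add (iu.const_mul _)
  have l2 : Integrable (fun z => q 0 z / b + 2 * B * y t z) m :=
    (i0.div_const _).add ((hm t).2.2.const_mul _)
  have h4 : ∫ z, (q t z / (b + a * t ^ 2) + 2 * u t z +
      ∫ s in (0 : ℝ)..t, 2 * a * s / (b + a * s ^ 2) ^ 2 * q s z) ∂m ≤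
      ∫ z, (q 0 z / b + 2 * B * y t z +
        ∫ s in (0 : ℝ)..t, 2 * a * s / (b + a * s ^ 2) / η * u s z) ∂m :=
    integral_mono_ae (l1.add a1) (l2.add b1) (hp.mono fun z hz => hz.2.2.2 t ht)
  rw [integral_add l1 a1, integral_add l2 b1, a2, b2,
    integral_add (iq.div_const _) (iu.const_mul _),
    integral_add (i0.div_const _) ((hm t).2.2.const_mul _), integral_div, integral_div,
    integral_const_mul, integral_const_mul] at h4
  exact h4

end Vale.Agent.P119
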