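import Vale.Agent.P119S.Stm

/-! The entropy bound for the number of close pairs. -/

open MeasureTheory Filter Topology Set
open scoped InnerProductSpace

namespace Vale.Agent.P119

theorem r_ey (hY : R_Y) (hZu : R_Zu) (hZl : R_Zl) (hent : R_ent) (hsg3 : S_g3) : R_ey := by
  intro c a b ε t K g n T hp hε h0 hT hv hi hg hK hw
  obtain ⟨-, y1, y2⟩ := hY ε n hε
  obtain ⟨m1, m2, m3⟩ := y2 (2 * ε)
  have u := hZu c a b t (2 * ε) K g n hp hg hK hw
  have bd : ∀ x : ℝ, |x| ≤ n → |g * x| ≤ g * n := fun x hx => by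
    rw [abs_mul, abs_of_nonneg hg]
    exact mul_le_mul_of_nonneg_left hx hg
  have e1 := hent c a b ε t n T hp h0 hT hv hi (fun z => g * Zu (2 * ε) z) (g * n) _
    (m1.const_mul g) (fun z => bd _ (m3 z).1) u
  have e2 := hent c a b ε t n T hp h0 hT hv hi (fun z => g * Zl (2 * ε) z) (g * n) _
    (m2.const_mul g) (fun z => bd _ (m3 z).2) ((hZl c a b t (2 * ε) g n).trans_le u)
  have i0 : IntegrableOn (fun z : Cfg n => tens (gau c a b 0) z) (excl ε n) :=
    ((hsg3 c a b n hp).1 0).2.2.2.1.integrableOn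
  have i1 : IntegrableOn (fun z => g * Zu (2 * ε) (T z) * tens (gau c a b 0) z) (excl ε n) :=
    Integrable.bdd_mul i0 ((m1.comp hT).const_mul g).aestronglyMeasurable
      (ae_of_all _ fun z => bd _ (m3 (T z)).1)
  have i2 : IntegrableOn (fun z => g * Zl (2 * ε) (T z) * tens (gau c a b 0) z) (excl ε n) :=
    Integrable.bdd_mul i0 ((m2.comp hT).const_mul g).aestronglyMeasurable
      (ae_of_all _ fun z => bd _ (m3 (T z)).2)
  have k : ∫ z in excl ε n, g * (Yn ε (T z) * tens (gau c a b 0) z) ≤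
      ∫ z in excl ε n, (g * Zu (2 * ε) (T z) * tens (gau c a b 0) z +
        g * Zl (2 * ε) (T z) * tens (gau c a b 0) z) := by
    refine integral_mono_of_nonneg (ae_of_all _ fun z => ?_) (i1.add i2) (ae_of_all _ fun z => ?_)
    · exact mul_nonneg hg (mul_nonneg (y1 _).1 (tens_pos hp.1 a b 0 z).le)
    · have := mul_le_mul_of_nonneg_left
        (mul_le_mul_of_nonneg_right (y1 (T z)).2.2 (tens_pos hp.1 a b 0 z).le) hg
      simp only
      linarith
  rw [integral_const_mul, integral_add i1 i2] at k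
  linarith

end Vale.Agent.P119
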