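import Vale.Agent.P119S.Top

open MeasureTheory Filter Topology Set

namespace Vale.Agent.P119

theorem final (Φ : E3 → ℝ) (hΦ : IsAdm Φ)
    (hV : Repulsive Φ ∨ Superstable Φ ∨ VirialStable Φ) (S : E3 → E3 → E3) (hS : IsScatMap Φ S)
    (β c a b T : ℝ) (hβ : 0 < β) (hb : 2 * β ≤ b) (hc : 0 < c) (ha : 0 < a)
    (h1 : ∫ z, gau c a b 0 z = 1) :
    Regular S β (gau c a b 0) T (gau c a b) ∧
    ∀ f : ℝ → E3 × E3 → ℝ, Regular S β (gau c a b 0) T f → ∀ s : ℕ, 1 ≤ s →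
      ∃ C : ℝ, ∀ ε : ℝ, 0 < ε → ε < 1 → ∀ Fl : ∀ n : ℕ, ℝ → Cfg n → Cfg n,
        (∀ n, IsFlow Φ ε (Fl n)) → ∀ t ∈ Icc 0 T,
        (∀ φ : Cfg s → ℝ, Measurable φ → (∀ y, |φ y| ≤ 1) →
          |marg (gau c a b 0) ε Fl s t φ - ∫ y, φ y * tens (f t) y| ≤ C * Real.sqrt ε) ∧
        ∀ F : Cfg s → ℝ, Integrable F →
          (∀ φ : Cfg s → ℝ, Measurable φ → (∀ y, |φ y| ≤ 1) →
            ∫ y, φ y * F y = marg (gau c a b 0) ε Fl s t φ) →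
          ∫ y, |F y - tens (f t) y| ≤ C * Real.sqrt ε := by
  have hP : Par c a b := ⟨hc, ha, by linarith, h1⟩
  have hE : Elastic S := fun V hV =>
    (hS V hV).mono fun ρ h h' => u_scat Φ V ρ _ hΦ hV (h h')
  have hW : VirialStable Φ := hV.elim (u_rep Φ hΦ) fun h => h.elim (u_sup Φ hΦ) id
  refine ⟨t_reg S β c a b T hE hb hP, fun f hf s hs => ?_⟩
  obtain ⟨C, hC⟩ := u_main Φ c a b T s hΦ hW hP hs
  refine ⟨C, fun ε h0 h1 Fl hFl t ht => ?_⟩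
  rw [t_uniq S β c a b T f hE hβ hP hf t ht]
  refine ⟨hC ε h0 h1 Fl hFl t ht.1 ht.2, fun F hF hFm => ?_⟩
  refine t_L1 _ volume F _ _ hF ((t_g3 c a b s hP).1 t).2.2.2.1 fun φ hφ hφ1 => ?_
  rw [hFm φ hφ hφ1]
  exact hC ε h0 h1 Fl hFl t ht.1 ht.2 φ hφ hφ1

end Vale.Agent.P119
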