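import Vale.Agent.P119S.Stm

open MeasureTheory Filter Topology Set
open scoped InnerProductSpace

namespace Vale.Agent.P119

theorem r_fixA (hctl : R_ctl) (halg : R_alg) (hfixI : R_fixI) (hfixX : R_fixX) (hliou : R_liou)
    (hent : R_ent) (hey : R_ey) (hsg3 : S_g3) : R_fixA := by
  intro Φ c a b T hΦ hV hP
  obtain ⟨B, η, hC⟩ := hctl Φ hΦ hV
  obtain ⟨g, C₀, hg, hC₀, hA⟩ := halg a b B η T hP.2.1 hP.2.2.1 hC.1 hC.2.1
  refine ⟨C₀ * (Real.exp g + 1), by positivity, ?_⟩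
  intro ε K n Fl hε hK hF hK' hp hlog t ht htT
  have hI := hfixI Φ B η ε c a b n Fl hΦ hC hε hP hF
  have hL := fun s hs => hliou Φ ε n Fl s hΦ hε hF hs
  obtain ⟨h3, -, -⟩ := hsg3 c a b n hP
  have hp1 : pn c a b ε n ≤ 1 := by
    rw [← (h3 0).2.2.2.2]
    refine setIntegral_le_integral (h3 0).2.2.2.1 (ae_of_all _ fun z => ?_)
    show 0 ≤ tens (gau c a b 0) z
    rw [(h3 0).2.2.1 z]
    exact mul_nonneg (pow_nonneg hP.1.le _) (Real.exp_pos _).le
  have hh : 0 ≤ pn c a b ε n * -Real.log (pn c a b ε n) :=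
    mul_nonneg hp.le (neg_nonneg.2 (Real.log_nonpos hp.le hp1))
  have he : 0 ≤ Real.exp g - 1 := sub_nonneg.2 (Real.one_le_exp hg)
  have hl : 0 ≤ pn c a b ε n * ((Real.exp g - 1) * (n : ℝ) ^ 2 * K) :=
    mul_nonneg hp.le (mul_nonneg (mul_nonneg he (sq_nonneg _)) hK)
  obtain ⟨M, hM⟩ := hfixX Φ B η ε c a b T n Fl hΦ hC hε hP hF
  obtain ⟨h0, hX⟩ := hM _ _ _ rfl rfl rfl
  have key := hA _ _ _ _ _ M hh hl (fun s hs hsT => by
    obtain ⟨x1, x2, x3, x4, x5⟩ := hX s hs hsT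
    refine ⟨x1, x2, x3, x4, ?_, ?_, x5⟩
    · have := hent c a b ε s n (Fl s) hP hp (hF.1 s) (hL s hs) (hI s hs) (fun _ => 0) 0 0
        measurable_const (fun _ => by simp) (by simp [(h3 s).2.2.2.2])
      rw [h0]
      simp only [zero_mul, integral_zero, mul_zero, zero_add] at this
      linarith
    · rw [h0]
      exact hey c a b ε s K g n (Fl s) hP hε hp (hF.1 s) (hL s hs) (hI s hs) hg hK (hK' s))
    t ht htT
  refine ⟨hF.1 t, hL t ht, hI t ht, ?_⟩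
  rw [h0] at key
  refine key.trans ?_
  have h1 := mul_le_mul_of_nonneg_left hlog hp.le
  have h2 := mul_le_mul_of_nonneg_left h1 hC₀
  nlinarith

end Vale.Agent.P119
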