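import Vale.Agent.P119S.Stm

open MeasureTheory Filter Topology Set
open scoped InnerProductSpace

namespace Vale.Agent.P119

namespace RFixCAux

theorem prob (hg1 : S_g1) {c a b : ℝ} (hP : Par c a b) (t : ℝ) :
    IsProbabilityMeasure ((volume : Measure (E3 × E3)).withDensity
      fun w => ENNReal.ofReal (gau c a b t w)) := by
  refine ⟨?_⟩
  obtain ⟨h1, h2⟩ := (hg1 c a b hP).1 t
  rw [withDensity_apply _ MeasurableSet.univ, Measure.restrict_univ,
    ← ofReal_integral_eq_lintegral_ofReal h1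
      (Eventually.of_forall fun z => (gau_pos hP.1 a b t z).le), h2, ENNReal.ofReal_one]

theorem meas_sel {m s n : ℕ} (e : Fin m × Fin s ↪ Fin n) {φ : Cfg s → ℝ} (hφ : Measurable φ)
    (j : Fin m) : Measurable fun z : Cfg n => φ (fun k => z (e (j, k))) :=
  hφ.comp (measurable_pi_lambda _ fun k => measurable_pi_apply (e (j, k)))

end RFixCAux

theorem r_fixC (hsg1 : S_g1) (hsg3 : S_g3) (hspi : S_pi) (hshoef : S_hoef) (hent : R_ent) :
    R_fixC := by
  intro ε c a b t L n T hP hp hG m s e φ g hφ hφ1 hg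
  have := RFixCAux.prob hsg1 hP t
  have hmg : Measurable (gau c a b t) := (cont_gau c a b t).measurable
  have hg0 : ∀ z, 0 ≤ gau c a b t z := fun z => (gau_pos hP.1 a b t z).le
  have hgi : Integrable (gau c a b t) := ((hsg1 c a b hP).1 t).1
  obtain ⟨θ, hθ⟩ : ∃ θ : ℝ, θ = ∫ y, φ y * tens (gau c a b t) y := ⟨_, rfl⟩
  rw [← hθ]
  have hH := hshoef (E3 × E3) ((volume : Measure (E3 × E3)).withDensity
      fun w => ENNReal.ofReal (gau c a b t w)) m s n e φ g hφ hφ1
  rw [hspi _ s φ hmg hg0 hgi, ← hθ, hspi _ n _ hmg hg0 hgi] at hH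
  have hXm : Measurable fun z : Cfg n => g * ∑ j : Fin m, (φ (fun k => z (e (j, k))) - θ) :=
    (Finset.measurable_sum _ fun j _ => (RFixCAux.meas_sel e hφ j).sub_const θ).const_mul g
  have hXb : ∀ z : Cfg n, |g * ∑ j : Fin m, (φ (fun k => z (e (j, k))) - θ)| ≤
      g * (m * (1 + |θ|)) := by
    intro z
    rw [abs_mul, abs_of_pos hg]
    refine mul_le_mul_of_nonneg_left ?_ hg.le
    refine (Finset.abs_sum_le_sum_abs _ _).trans ?_
    have h1 : ∀ j ∈ (Finset.univ : Finset (Fin m)), |φ (fun k => z (e (j, k))) - θ| ≤ 1 + |θ| :=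
      fun j _ => (abs_sub _ _).trans (add_le_add_left (hφ1 _) _)
    refine (Finset.sum_le_sum h1).trans (le_of_eq ?_)
    simp only [Finset.sum_const, Finset.card_univ, Fintype.card_fin, nsmul_eq_mul]
  have hB := hent c a b ε t n T hP hp hG.1 hG.2.1 hG.2.2.1 _ _ _ hXm hXb hH
  have hti : IntegrableOn (fun z : Cfg n => tens (gau c a b 0) z) (excl ε n) :=
    (((hsg3 c a b n hP).1 0).2.2.2.1).integrableOn
  have hI : ∀ j : Fin m, IntegrableOn
      (fun z : Cfg n => φ (fun k => T z (e (j, k))) * tens (gau c a b 0) z) (excl ε n) := by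
    intro j
    refine Integrable.bdd_mul (c := 1) hti
      ((RFixCAux.meas_sel e hφ j).comp hG.1).aestronglyMeasurable ?_
    exact Eventually.of_forall fun z => by simpa using hφ1 _
  have hE : ∫ z in excl ε n, (g * ∑ j : Fin m, (φ (fun k => T z (e (j, k))) - θ)) *
      tens (gau c a b 0) z = g * ((∑ j : Fin m, ∫ z in excl ε n,
        φ (fun k => T z (e (j, k))) * tens (gau c a b 0) z) - m * θ * pn c a b ε n) := by
    have h1 : ∀ z : Cfg n, (g * ∑ j : Fin m, (φ (fun k => T z (e (j, k))) - θ)) *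
        tens (gau c a b 0) z = g * ((∑ j : Fin m, φ (fun k => T z (e (j, k))) *
          tens (gau c a b 0) z) - m * θ * tens (gau c a b 0) z) := by
      intro z
      rw [Finset.sum_sub_distrib, ← Finset.sum_mul]
      simp only [Finset.sum_const, Finset.card_univ, Fintype.card_fin, nsmul_eq_mul]
      ring
    simp_rw [h1]
    rw [integral_const_mul, integral_sub (integrable_finsetSum _ fun j _ => hI j)
      (hti.const_mul _), integral_finsetSum _ fun j _ => hI j, integral_const_mul]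
    rfl
  rw [hE] at hB
  obtain ⟨S, hS⟩ : ∃ S : ℝ, S = ∑ j : Fin m, ∫ z in excl ε n,
        φ (fun k => T z (e (j, k))) * tens (gau c a b 0) z := ⟨_, rfl⟩
  rw [← hS] at hB ⊢
  have hL := hG.2.2.2
  generalize -Real.log (pn c a b ε n) = l at hB ⊢
  refine le_of_mul_le_mul_left ?_ hg
  have h2 : g * (pn c a b ε n * (m * θ + m * g / 2 + (l + L) / g)) =
      g * (m * θ * pn c a b ε n) + pn c a b ε n * (m * g ^ 2 / 2 + (l + L)) := by
    field_simp
    ring
  rw [h2]
  linarith

end Vale.Agent.P119
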