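import Vale.Agent.P119S.Stm

/-! Integrability of the transported exponent. -/

open MeasureTheory Filter Topology Set
open scoped InnerProductSpace

namespace Vale.Agent.P119

theorem r_fixI (hdom : R_dom) (hsg3 : S_g3) : R_fixI := by
  intro Φ B η ε c a b n Fl hΦ hC hε hP hF t ht
  obtain ⟨h1, h2, -⟩ := hsg3 c a b n hP
  obtain ⟨hc, ha, hb, -⟩ := hP
  obtain ⟨C, -, hdm⟩ := hdom Φ B η ε a b t n hΦ hC hε ha hb
  refine Integrable.mono' (((h2.add (h1 0).2.2.2.1).const_mul C).integrableOn)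
    ((((h1 t).1.comp (hF.1 t)).mul (cont_tens c a b 0 n).measurable).aestronglyMeasurable) ?_
  filter_upwards [hF.2, ae_restrict_mem (meas_excl ε n)] with z hz hz'
  have h3 := (hdm (fun t => Fl t z) hz.2 (by rwa [hz.1]) t ht le_rfl).1
  rw [hz.1] at h3
  have p := (tens_pos hc a b 0 z).le
  rw [Real.norm_eq_abs, abs_of_nonneg (mul_nonneg ((h1 t).2.1 _) p)]
  refine (mul_le_mul_of_nonneg_right h3 p).trans (le_of_eq ?_)
  rw [Pi.add_apply]
  ring

end Vale.Agent.P119
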