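import Vale.Agent.P119S.Stm

/-! Integration of the first particle. -/

open MeasureTheory Filter Topology Set
open scoped InnerProductSpace

namespace Vale.Agent.P119

namespace RFubAux

theorem meas_cons (n : ℕ) :
    Measurable fun p : (E3 × E3) × Cfg n => (Fin.cons p.1 p.2 : Cfg (n + 1)) := by
  refine measurable_pi_lambda _ fun i => ?_
  refine Fin.cases ?_ (fun j => ?_) i
  · exact measurable_fst
  · exact (measurable_pi_apply j).comp measurable_snd

end RFubAux

theorem r_fub (hsg3 : S_g3) (hsg1 : S_g1) : R_fub := by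
  intro c a b t M n G hP hG hM
  have : SigmaFinite (volume : Measure (Cfg n)) := Measure.pi.sigmaFinite _
  have i1 := ((hsg1 c a b hP).1 t).1
  have i2 := ((hsg3 c a b n hP).1 t).2.2.2.1
  have i3 : Integrable (fun p : (E3 × E3) × Cfg n =>
      G (Fin.cons p.1 p.2) * (gau c a b t p.1 * tens (gau c a b t) p.2))
      ((volume : Measure (E3 × E3)).prod (volume : Measure (Cfg n))) :=
    (i1.mul_prod i2).bdd_mul (c := M) (hG.comp (RFubAux.meas_cons n)).aestronglyMeasurable
      (Eventually.of_forall fun p => hM _)
  have e : ∀ z : Cfg n, (∫ w, G (Fin.cons w z) * gau c a b t w) * tens (gau c a b t) z =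
      ∫ w, G (Fin.cons w z) * (gau c a b t w * tens (gau c a b t) z) := by
    intro z
    rw [← integral_mul_const]
    simp only [mul_assoc]
  simp only [e]
  refine ⟨i3.integral_prod_right, ?_⟩
  rw [← integral_prod_symm _ i3, ← Measure.volume_eq_prod,
    ← (volume_preserving_piFinSuccAbove (fun _ : Fin (n + 1) => E3 × E3) 0).integral_comp']
  refine congrArg _ (funext fun z => ?_)
  show _ = G (Fin.cons (z 0) (Fin.tail z)) *
    (gau c a b t (z 0) * tens (gau c a b t) fun j : Fin n => z j.succ)
  rw [Fin.cons_self_tail]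
  exact congrArg _ (Fin.prod_univ_succ _)

end Vale.Agent.P119
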