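import Vale.Agent.P119S.Stm

/-! An integral Gronwall lemma for bounded functions. -/

open MeasureTheory Filter Topology Set
open scoped InnerProductSpace

namespace Vale.Agent.P119

namespace RGronAux

theorem step (u : ℝ → ℝ) (N c t : ℝ) (hc : 0 < c) (ht : 0 ≤ t)
    (hi : IntervalIntegrable u volume 0 t) (hb : ∀ s, 0 ≤ s → s ≤ t → u s ≤ N * Real.exp (c * s)) :
    c * ∫ s in (0 : ℝ)..t, u s ≤ N * (Real.exp (c * t) - 1) := by
  have hd : ∀ s ∈ uIcc (0 : ℝ) t, HasDerivAt (fun s => N * Real.exp (c * s))
      (c * (N * Real.exp (c * s))) s := by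
    intro s _
    have h1 : HasDerivAt (fun s => c * s) c s := by simpa using (hasDerivAt_id s).const_mul c
    exact (h1.exp.const_mul N).congr_deriv (by ring)
  have hcont : Continuous fun s => c * (N * Real.exp (c * s)) := by fun_prop
  have e := intervalIntegral.integral_eq_sub_of_hasDerivAt hd (hcont.intervalIntegrable 0 t)
  rw [← intervalIntegral.integral_const_mul]
  refine (intervalIntegral.integral_mono_on ht (hi.const_mul c) (hcont.intervalIntegrable 0 t)
    fun s hs => mul_le_mul_of_nonneg_left (hb s hs.1 hs.2) hc.le).trans (le_of_eq ?_)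
  rw [e, mul_zero, Real.exp_zero]
  ring

end RGronAux

theorem r_gron : R_gron := by
  intro u R c M T hR hc h
  have hM : 0 ≤ max M 0 := le_max_right _ _
  have key : ∀ k : ℕ, ∀ s, 0 ≤ s → s ≤ T →
      u s ≤ (R + max M 0 * (1 / 2) ^ k) * Real.exp (c * s) := by
    intro k
    induction k with
    | zero =>
      intro s h0 h1
      have h2 := (h s h0 h1).2.1.trans (le_max_left M 0)
      have h3 := Real.one_le_exp (mul_nonneg hc.le h0)
      rw [pow_zero, mul_one]
      nlinarith
    | succ k ih =>
      intro s h0 h1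
      obtain ⟨hi, -, h2⟩ := h s h0 h1
      have h3 := RGronAux.step u _ c s hc h0 hi fun r hr hrs => ih r hr (hrs.trans h1)
      have h4 := Real.one_le_exp (mul_nonneg hc.le h0)
      have h5 : 0 ≤ max M 0 * (1 / 2) ^ k := by positivity
      have h6 : 0 ≤ R * Real.exp (c * s) := by positivity
      rw [pow_succ]
      nlinarith
  have lim : ∀ s, 0 ≤ s → s ≤ T → u s ≤ R * Real.exp (c * s) := by
    intro s h0 h1
    have hl : Tendsto (fun k : ℕ => (R + max M 0 * (1 / 2) ^ k) * Real.exp (c * s)) atTop
        (𝓝 ((R + max M 0 * 0) * Real.exp (c * s))) :=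
      (((tendsto_pow_atTop_nhds_zero_of_lt_one (r := (1 / 2 : ℝ)) (by norm_num)
        (by norm_num)).const_mul _).const_add R).mul_const _
    rw [mul_zero, add_zero] at hl
    exact ge_of_tendsto' hl fun k => key k s h0 h1
  intro t h0 h1
  have h3 := RGronAux.step u R c t hc h0 (h t h0 h1).1 fun r hr hrs => lim r hr (hrs.trans h1)
  linarith

end Vale.Agent.P119
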