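import Vale.Agent.P119S.Stm
import Vale.Agent.P119.Main

open MeasureTheory Filter Topology Set
open scoped InnerProductSpace

namespace Vale.Agent.P119

def R_main : Prop := ∀ (Φ : E3 → ℝ) (c a b T : ℝ) (s : ℕ), IsAdm Φ → VirialStable Φ →
  Par c a b → 1 ≤ s → ∃ C : ℝ, ∀ ε : ℝ, 0 < ε → ε < 1 → ∀ Fl : ∀ n : ℕ, ℝ → Cfg n → Cfg n,
    (∀ n, IsFlow Φ ε (Fl n)) → ∀ t, 0 ≤ t → t ≤ T → ∀ φ : Cfg s → ℝ, Measurable φ →
    (∀ y, |φ y| ≤ 1) →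
    |marg (gau c a b 0) ε Fl s t φ - ∫ y, φ y * tens (gau c a b t) y| ≤ C * Real.sqrt ε

theorem r_main (hg2 : R_g2) (hp : S_p) (hfixA : R_fixA) (hfixE : R_fixE) (htriv : S_triv)
    (hgc : S_gc) : R_main := by
  intro Φ c a b T s hΦ hV hP hs
  obtain ⟨K, hK, hb⟩ := hg2 c a b hP
  obtain ⟨C, hC, hA⟩ := hfixA Φ c a b T hΦ hV hP
  refine ⟨1 / 2 + 2 * s * (2 + C) * (8 * K) * (1 + s) + s * (1 + s) * (8 * K), ?_⟩
  intro ε h0 h1 Fl hFl t t0 tT φ hφ hφ1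
  have g0 : 0 < √ε := Real.sqrt_pos.2 h0
  have b1 : ∀ y : E3, ∫ z in {z : E3 × E3 | ‖z.1 - y‖ ≤ ε}, gau c a b 0 z ≤ 8 * K * ε ^ 3 :=
    fun y => (hb 0 y ε h0).trans (by nlinarith [mul_pos hK (pow_pos h0 3)])
  have b2 : ∀ (t : ℝ) (y : E3),
      ∫ z in {z : E3 × E3 | ‖z.1 - y‖ ≤ 2 * ε}, gau c a b t z ≤ 8 * K * ε ^ 3 :=
    fun t y => (hb t y (2 * ε) (by positivity)).trans (le_of_eq (by ring))
  have hp' := hp c a b ε (8 * K * ε ^ 3) hP h0 b1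
  have key := hgc (ε⁻¹ ^ 2) (8 * K * ε ^ 3) (√ε / 2)
    (2 * s * (2 + C) * (8 * K * ε ^ 3) / √ε) (∫ y, φ y * tens (gau c a b t) y) s
    (pn c a b ε) (fun n => ∫ z in excl ε n,
      (∑ e : Fin s ↪ Fin n, φ (fun k => Fl n t z (e k))) * tens (gau c a b 0) z)
    (by positivity) (by positivity) (by positivity) (by positivity)
    (htriv ε c a b t 0 s id φ hP measurable_id hφ hφ1).1 hp'.1 hp'.2 (fun n =>
      hfixE ε c a b t (8 * K * ε ^ 3) C n (Fl n t) h0 hP ((hFl n).1 t) (by positivity) hC b1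
        (fun h h' => hA ε (8 * K * ε ^ 3) n (Fl n) h0 (by positivity) (hFl n) b2 h h' t t0 tT)
        s φ (√ε) hs hφ hφ1 g0 (Real.sqrt_le_one.2 h1.le))
  exact key.trans (MainAux.arith h0 h1 (by positivity) (by positivity))

end Vale.Agent.P119
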