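import Vale.Agent.P119S.Stm

/-! The differential inequality along one trajectory, with a signed virial. -/

open MeasureTheory Filter Topology Set
open scoped InnerProductSpace

namespace Vale.Agent.P119

theorem r_ode : R_ode := by
  intro a b q u W P g ha hb hq hu cg hW u1 t ht
  have k0 : ∀ s : ℝ, b + a * s ^ 2 ≠ 0 := fun s => by positivity
  have cq : Continuous q := continuous_iff_continuousAt.2 fun s => (hq s).continuousAt
  have cf : Continuous fun s : ℝ => 2 * a * s / (b + a * s ^ 2) ^ 2 * q s :=
    (Continuous.div (by fun_prop) (by fun_prop) fun s => pow_ne_zero 2 (k0 s)).mul cq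
  have ch : Continuous fun s : ℝ => 2 * a * s / (b + a * s ^ 2) * g s :=
    (Continuous.div (by fun_prop) (by fun_prop) k0).mul cg
  have hG : ∀ r, HasDerivAt (fun r => q r / (b + a * r ^ 2) + 2 * u r +
      (∫ s in (0 : ℝ)..r, 2 * a * s / (b + a * s ^ 2) ^ 2 * q s) -
      ∫ s in (0 : ℝ)..r, 2 * a * s / (b + a * s ^ 2) * g s)
      (-(2 * a * r * (W r + g r) / (b + a * r ^ 2))) r := fun r => by
    have h1 : HasDerivAt (fun r : ℝ => b + a * r ^ 2) (a * (2 * r)) r := by
      simpa using ((hasDerivAt_pow 2 r).const_mul a).const_add b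
    refine (((((hq r).fun_div h1 (k0 r)).add ((hu r).const_mul 2)).add
      (cf.integral_hasStrictDerivAt 0 r).hasDerivAt).sub
      (ch.integral_hasStrictDerivAt 0 r).hasDerivAt).congr_deriv ?_
    have := k0 r
    field_simp
    ring
  have hA := antitoneOn_of_deriv_nonpos (convex_Ici (0 : ℝ))
    (fun r _ => (hG r).continuousAt.continuousWithinAt)
    (fun r _ => (hG r).differentiableAt.differentiableWithinAt) fun r hr => by
      rw [(hG r).deriv]
      have r0 : 0 ≤ r := interior_subset hr
      have : 0 ≤ W r + g r := by linarith [hW r]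
      exact neg_nonpos.2 (by positivity)
  have h2 := hA (mem_Ici.2 le_rfl) (mem_Ici.2 ht) ht
  simp only [u1, intervalIntegral.integral_same, ne_eq, OfNat.ofNat_ne_zero, not_false_eq_true,
    zero_pow, mul_zero, add_zero, sub_zero] at h2
  linarith

end Vale.Agent.P119
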