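import Vale.Agent.P119S.Stm

/-! Integrating out one particle. -/

open MeasureTheory Filter Topology Set
open scoped InnerProductSpace

namespace Vale.Agent.P119

namespace ROneAux

open Classical in
theorem zu_cons (r : ℝ) {n : ℕ} (w : E3 × E3) (z : Cfg n) :
    Zu r (Fin.cons w z : Cfg (n + 1)) =
      (if ∃ j, ‖w.1 - (z j).1‖ ≤ r then 1 else 0) + Zu r z := by
  unfold Zu
  rw [Fin.sum_univ_succ]
  refine congrArg₂ (· + ·) (if_congr ?_ rfl rfl)
    (Finset.sum_congr rfl fun i _ => if_congr ?_ rfl rfl)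
  · simp [Fin.exists_fin_succ]
  · simp [Fin.exists_fin_succ]

open Classical in
theorem pt (g r : ℝ) (hg : 0 ≤ g) {n : ℕ} (w : E3 × E3) (z : Cfg n) (f : E3 × E3 → ℝ)
    (hf : ∀ w, 0 ≤ f w) :
    Real.exp (g * if ∃ j, ‖w.1 - (z j).1‖ ≤ r then 1 else 0) * f w ≤
      f w + (Real.exp g - 1) * ∑ j, {w : E3 × E3 | ‖w.1 - (z j).1‖ ≤ r}.indicator f w := by
  have e1 : 0 ≤ Real.exp g - 1 := sub_nonneg.2 (Real.one_le_exp hg)
  have e2 : ∀ j ∈ Finset.univ, 0 ≤ {w : E3 × E3 | ‖w.1 - (z j).1‖ ≤ r}.indicator f w :=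
    fun j _ => indicator_nonneg (fun w _ => hf w) w
  split_ifs with h
  · obtain ⟨j, hj⟩ := h
    have e3 := Finset.single_le_sum e2 (Finset.mem_univ j)
    rw [indicator_of_mem (show w ∈ {w : E3 × E3 | ‖w.1 - (z j).1‖ ≤ r} from hj)] at e3
    have e4 := mul_le_mul_of_nonneg_left e3 e1
    rw [mul_one]
    linarith
  · rw [mul_zero, Real.exp_zero, one_mul]
    exact le_add_of_nonneg_right (mul_nonneg e1 (Finset.sum_nonneg e2))

end ROneAux

theorem r_one (hsg1 : S_g1) : R_one := by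
  intro c a b t r K g n z hP hg hK
  obtain ⟨i0, i1⟩ := (hsg1 c a b hP).1 t
  have g0 : ∀ w, 0 ≤ gau c a b t w := fun w => (gau_pos hP.1 a b t w).le
  have e1 : 0 ≤ Real.exp g - 1 := sub_nonneg.2 (Real.one_le_exp hg)
  have hS : ∀ j, MeasurableSet {w : E3 × E3 | ‖w.1 - (z j).1‖ ≤ r} := fun j =>
    (isClosed_le (by fun_prop) continuous_const).measurableSet
  have i2 : ∀ j ∈ Finset.univ,
      Integrable ({w : E3 × E3 | ‖w.1 - (z j).1‖ ≤ r}.indicator (gau c a b t)) :=
    fun j _ => i0.indicator (hS j)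
  have i3 : Integrable fun w => (Real.exp g - 1) *
      ∑ j, {w : E3 × E3 | ‖w.1 - (z j).1‖ ≤ r}.indicator (gau c a b t) w :=
    (integrable_finsetSum _ i2).const_mul _
  have i4 : Integrable fun w => Real.exp (g * Zu r z) * (gau c a b t w + (Real.exp g - 1) *
      ∑ j, {w : E3 × E3 | ‖w.1 - (z j).1‖ ≤ r}.indicator (gau c a b t) w) :=
    (i0.add i3).const_mul _
  refine (integral_mono_of_nonneg (Eventually.of_forall fun w =>
    mul_nonneg (Real.exp_pos _).le (g0 w)) i4 (Eventually.of_forall fun w => ?_)).trans ?_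
  · simp only [ROneAux.zu_cons]
    rw [mul_add g, Real.exp_add, mul_comm _ (Real.exp (g * Zu r z)), mul_assoc]
    exact mul_le_mul_of_nonneg_left (ROneAux.pt g r hg w z _ g0) (Real.exp_pos _).le
  · rw [integral_const_mul, integral_add i0 i3, integral_const_mul, integral_finsetSum _ i2, i1]
    refine mul_le_mul_of_nonneg_left ?_ (Real.exp_pos _).le
    have e2 : ∑ j, ∫ w, {w : E3 × E3 | ‖w.1 - (z j).1‖ ≤ r}.indicator (gau c a b t) w ≤ n * K := by
      have q := Finset.sum_le_card_nsmul Finset.univ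
        (fun j => ∫ w, {w : E3 × E3 | ‖w.1 - (z j).1‖ ≤ r}.indicator (gau c a b t) w) K
        fun j _ => by
          rw [integral_indicator (hS j)]
          exact hK _
      rwa [Finset.card_univ, Fintype.card_fin, nsmul_eq_mul] at q
    have e3 := mul_le_mul_of_nonneg_left e2 e1
    have e4 := Real.add_one_le_exp ((Real.exp g - 1) * n * K)
    rw [← mul_assoc] at e3
    linarith

end Vale.Agent.P119
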