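import Vale.Agent.P119S.Stm

/-! The pathwise inequality along a solution of the equations of Newton. -/

open MeasureTheory Filter Topology Set
open scoped InnerProductSpace

namespace Vale.Agent.P119

namespace RPathAux

theorem kin_le {a b : ℝ} (ha : 0 < a) (hb : 0 < b) {n : ℕ} (z : Cfg n) :
    ∑ k, ‖(z k).2‖ ^ 2 ≤ Qn a b 0 z / b := by
  rw [le_div_iff₀ hb, Finset.sum_mul]
  unfold Qn
  refine Finset.sum_le_sum fun i _ => ?_
  have : 0 ≤ a * ‖(z i).1 - (0 : ℝ) • (z i).2‖ ^ 2 := by positivity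
  linarith

end RPathAux

theorem r_path (hdU : R_dU) (hvir : R_vir) (hY : R_Y) (hode : R_ode) (hen : R_en)
    (hsdQ : S_dQ) : R_path := by
  intro Φ B η ε a b n γ hΦ hC hε ha hb hN h0
  obtain ⟨-, v2, -, -⟩ := hvir Φ ε n hΦ hε
  obtain ⟨y1, y2, -⟩ := hY ε n hε
  obtain ⟨M, hM⟩ := hen Φ ε n hΦ hε
  have hq := fun t => hsdQ a b n γ (force Φ ε fun j => (γ t j).1) t (hN.2 t)
  have hu := hdU Φ ε n γ hΦ hε hN
  have hγ : Continuous γ := continuous_pi fun i =>
    Continuous.prodMk (continuous_iff_continuousAt.mpr fun t => (hN.2 t i).1.continuousAt)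
      (continuous_iff_continuousAt.mpr fun t => (hN.2 t i).2.continuousAt)
  have hUc : Continuous (fun s => Ut Φ B ε (γ s)) :=
    (continuous_iff_continuousAt.mpr fun t => (hu t).continuousAt).add
      (continuous_const.mul (y1.comp hγ))
  have hc := fun s => hC.2.2 ε n (γ s) hε (hN.1.imp id fun h => h s)
  refine ⟨continuous_iff_continuousAt.mpr fun t => (hq t).continuousAt, hUc, fun s =>
    ⟨(hc s).1, ?_⟩, fun t ht => ?_⟩
  · have h1 := (hM γ hN h0 s).1
    have h2 := RPathAux.kin_le ha hb (γ 0)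
    have h3 : B * Yn ε (γ s) ≤ B * n := mul_le_mul_of_nonneg_left (y2 (γ s)).2.1 hC.1
    have h4 : 0 ≤ ∑ k, ‖(γ 0 k).2‖ ^ 2 := Finset.sum_nonneg fun k _ => by positivity
    unfold Ut
    linarith
  · have h1 := hode a b (fun s => Qn a b s (γ s)) (fun s => Un Φ ε (γ s))
      (fun t => ∑ i, ⟪(γ t i).1, force Φ ε (fun j => (γ t j).1) i⟫_ℝ)
      (fun t => ∑ i, ⟪(γ t i).2, force Φ ε (fun j => (γ t j).1) i⟫_ℝ)
      (fun s => Ut Φ B ε (γ s) / η) ha hb hq hu (hUc.div_const η) (fun s => (hc s).2)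
      (v2 _ h0) t ht
    have h2 : ∫ s in (0 : ℝ)..t, 2 * a * s / (b + a * s ^ 2) / η * Ut Φ B ε (γ s) =
        ∫ s in (0 : ℝ)..t, 2 * a * s / (b + a * s ^ 2) * (Ut Φ B ε (γ s) / η) := by
      refine intervalIntegral.integral_congr fun s _ => ?_
      ring
    have h3 : Ut Φ B ε (γ t) = Un Φ ε (γ t) + B * Yn ε (γ t) := rfl
    rw [h2]
    linarith

end Vale.Agent.P119
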