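import Vale.Agent.P119S.Stm

/-! Elementary properties of a stable potential. -/

open MeasureTheory Filter Topology Set
open scoped InnerProductSpace

namespace Vale.Agent.P119

namespace RPotAux

theorem inner_grad (f : E3 → ℝ) (y v : E3) : ⟪v, gradient f y⟫_ℝ = fderiv ℝ f y v := by
  rw [real_inner_comm]
  exact InnerProductSpace.toDual_symm_apply

theorem two (Φ : E3 → ℝ) (y : E3) : pairSum Φ ![y, 0] = Φ y + Φ (-y) := by
  have e0 : (Finset.univ : Finset (Fin 2)).erase 0 = {1} := by decide
  have e1 : (Finset.univ : Finset (Fin 2)).erase 1 = {0} := by decide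
  rw [pairSum, Fin.sum_univ_two, e0, e1]
  simp

end RPotAux

theorem r_pot : R_pot := by
  intro Φ h
  refine ⟨fun y hy => ?_, fun y => ?_, fun y hy => ?_,
    measurable_of_continuousOn_compl_singleton 0 h.2.1.continuousOn, ?_⟩
  · rcases hy with hc | hy
    · exact hc.differentiable (by norm_num) y
    · exact (h.2.1.contDiffAt (isOpen_compl_singleton.mem_nhds hy)).differentiableAt (by norm_num)
  · have e : Φ ∘ (ContinuousLinearEquiv.neg ℝ : E3 ≃L[ℝ] E3) = Φ :=
      funext fun z => h.1 _ _ (norm_neg z)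
    have := (ContinuousLinearEquiv.neg ℝ : E3 ≃L[ℝ] E3).comp_right_fderiv (f := Φ) (x := y)
    rw [e] at this
    refine ext_inner_left ℝ fun v => ?_
    rw [inner_neg_right, RPotAux.inner_grad, RPotAux.inner_grad, this]
    simp
  · have e : Φ =ᶠ[𝓝 y] fun _ => 0 :=
      ((isOpen_lt continuous_const continuous_norm).eventually_mem hy).mono
        fun z hz => h.2.2.1 z (le_of_lt hz)
    rw [e.gradient_eq, gradient_fun_const]
  · obtain ⟨B, hB⟩ := h.2.2.2.2
    refine ⟨max |B| |Φ 0|, le_max_of_le_left (abs_nonneg B), fun y => ?_⟩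
    by_cases e : y = 0
    · rw [e]
      linarith [le_max_right |B| |Φ 0|, neg_abs_le (Φ 0)]
    · have h1 := hB 2 ![y, 0] fun i j hij => by
        fin_cases i <;> fin_cases j <;> simp_all
      rw [RPotAux.two, h.1 (-y) y (norm_neg y), Nat.cast_ofNat] at h1
      linarith [le_max_left |B| |Φ 0|, le_abs_self B]

end Vale.Agent.P119
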