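import Vale.Agent.P119S.Stm

open MeasureTheory Filter Topology Set
open scoped InnerProductSpace

namespace Vale.Agent.P119

theorem r_rep (hspot : S_pot) : R_rep := by
  intro Φ hA hR
  have hP : IsPot Φ := by
    refine ⟨hA.1, hA.2.1, hA.2.2.1, ?_, hR⟩
    rcases hA.2.2.2.1 with h | h
    · exact Or.inl h
    · exact Or.inr h.1
  obtain ⟨h1, -, h3⟩ := hspot Φ hP
  refine ⟨1, one_pos, 0, fun n x hx => ?_⟩
  rw [zero_mul, neg_zero]
  unfold pairSum
  refine Finset.sum_nonneg fun i _ => Finset.sum_nonneg fun j hj => ?_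
  have hne : x i - x j ≠ 0 := sub_ne_zero.2 fun h => (Finset.ne_of_mem_erase hj) (hx h).symm
  have h4 := (h1 _ (Or.inr hne)).1
  have h5 := h3 (x i - x j)
  linarith

end Vale.Agent.P119
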