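import Vale.Agent.P119.Stm2
import Vale.Agent.P119S.Defs

/-! Statements of the steps for potentials with attractive parts. -/

open MeasureTheory Filter Topology Set
open scoped InnerProductSpace

namespace Vale.Agent.P119

/-- Continuous count of the points having a close neighbour. -/
noncomputable def Yc {n : ℕ} (x : Fin n → E3) : ℝ :=
  ∑ i, min 1 (∑ j ∈ Finset.univ.erase i, max 0 (2 - ‖x i - x j‖))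

noncomputable def Yn (ε : ℝ) {n : ℕ} (z : Cfg n) : ℝ := Yc (fun i => ε⁻¹ • (z i).1)

open Classical in
noncomputable def Zu (r : ℝ) {n : ℕ} (z : Cfg n) : ℝ :=
  ∑ i, if ∃ j, i < j ∧ ‖(z i).1 - (z j).1‖ ≤ r then 1 else 0

open Classical in
noncomputable def Zl (r : ℝ) {n : ℕ} (z : Cfg n) : ℝ :=
  ∑ i, if ∃ j, j < i ∧ ‖(z i).1 - (z j).1‖ ≤ r then 1 else 0

/-- Corrected potential energy. -/
noncomputable def Ut (Φ : E3 → ℝ) (B ε : ℝ) {n : ℕ} (z : Cfg n) : ℝ := Un Φ ε z + B * Yn ε z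

/-- Control of energy and virial. -/
def Ctl (Φ : E3 → ℝ) (B η : ℝ) : Prop :=
  0 ≤ B ∧ 0 < η ∧ ∀ (ε : ℝ) (n : ℕ) (z : Cfg n), 0 < ε →
    (ContDiff ℝ 2 Φ ∨ ∀ i j, i ≠ j → (z i).1 ≠ (z j).1) → 0 ≤ Ut Φ B ε z ∧
      -∑ i, ⟪(z i).1, force Φ ε (fun j => (z j).1) i⟫_ℝ ≤ Ut Φ B ε z / η

/-- What the chaos estimate needs of the time `t` map. -/
def Good (c a b ε t : ℝ) {n : ℕ} (T : Cfg n → Cfg n) (L : ℝ) : Prop :=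
  Measurable T ∧ (∀ A, volume (excl ε n ∩ T ⁻¹' A) ≤ volume A) ∧
    IntegrableOn (fun z => Qn a b t (T z) * tens (gau c a b 0) z) (excl ε n) ∧
    (∫ z in excl ε n, Qn a b t (T z) * tens (gau c a b 0) z) -
      ∫ z in excl ε n, Qn a b 0 z * tens (gau c a b 0) z ≤ pn c a b ε n * L

def R_pot : Prop := ∀ Φ : E3 → ℝ, IsAdm Φ →
  (∀ y, (ContDiff ℝ 2 Φ ∨ y ≠ 0) → DifferentiableAt ℝ Φ y) ∧
    (∀ y, gradient Φ (-y) = -gradient Φ y) ∧ (∀ y, 1 < ‖y‖ → gradient Φ y = 0) ∧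
    Measurable Φ ∧ ∃ m : ℝ, 0 ≤ m ∧ ∀ y, -m ≤ Φ y

def R_rep : Prop := ∀ Φ : E3 → ℝ, IsAdm Φ → Repulsive Φ → VirialStable Φ

def R_sup : Prop := ∀ Φ : E3 → ℝ, IsAdm Φ → Superstable Φ → VirialStable Φ

def R_dens : Prop := ∀ (Ψ : E3 → ℝ) (B : ℝ) (n : ℕ), Continuous Ψ →
  (∀ x : Fin n → E3, Function.Injective x → B ≤ pairSum Ψ x) → ∀ x : Fin n → E3, B ≤ pairSum Ψ x

def R_sub : Prop := ∀ Ψ : E3 → ℝ, Stable Ψ → (∀ y, 1 < ‖y‖ → Ψ y = 0) →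
  ∃ B : ℝ, 0 ≤ B ∧ ∀ (n : ℕ) (x : Fin n → E3), (Continuous Ψ ∨ Function.Injective x) →
    -(B * Yc x) ≤ pairSum Ψ x

def R_dU : Prop := ∀ (Φ : E3 → ℝ) (ε : ℝ) (n : ℕ) (γ : ℝ → Cfg n), IsAdm Φ → 0 < ε →
  Newton Φ ε γ → ∀ t, HasDerivAt (fun s => Un Φ ε (γ s))
    (-∑ i, ⟪(γ t i).2, force Φ ε (fun j => (γ t j).1) i⟫_ℝ) t

def R_vir : Prop := ∀ (Φ : E3 → ℝ) (ε : ℝ) (n : ℕ), IsAdm Φ → 0 < ε →
  (∀ x : Fin n → E3, -∑ i, ⟪x i, force Φ ε x i⟫_ℝ =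
    (1 / 2) * pairSum (fun y => ⟪y, gradient Φ y⟫_ℝ) (fun i => ε⁻¹ • x i)) ∧
  (∀ z ∈ excl ε n, Un Φ ε z = 0) ∧
  (∀ z : Cfg n, Un Φ ε z = (1 / 2) * pairSum Φ (fun i => ε⁻¹ • (z i).1)) ∧
  Measurable (fun z : Cfg n => Un Φ ε z)

def R_ctl : Prop := ∀ Φ : E3 → ℝ, IsAdm Φ → VirialStable Φ → ∃ B η : ℝ, Ctl Φ B η

def R_Y : Prop := ∀ (ε : ℝ) (n : ℕ), 0 < ε → Continuous (fun z : Cfg n => Yn ε z) ∧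
  (∀ z : Cfg n, 0 ≤ Yn ε z ∧ Yn ε z ≤ n ∧ Yn ε z ≤ Zu (2 * ε) z + Zl (2 * ε) z) ∧
  ∀ r : ℝ, Measurable (fun z : Cfg n => Zu r z) ∧ Measurable (fun z : Cfg n => Zl r z) ∧
    ∀ z : Cfg n, |Zu r z| ≤ n ∧ |Zl r z| ≤ n

def R_ode : Prop := ∀ (a b : ℝ) (q u W P g : ℝ → ℝ), 0 < a → 0 < b →
  (∀ t, HasDerivAt q (-(2 * a * t) * W t + 2 * (b + a * t ^ 2) * P t) t) →
  (∀ t, HasDerivAt u (-P t) t) → Continuous g → (∀ t, -W t ≤ g t) → u 0 = 0 →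
  ∀ t, 0 ≤ t → q t / (b + a * t ^ 2) + 2 * u t +
    ∫ s in (0 : ℝ)..t, 2 * a * s / (b + a * s ^ 2) ^ 2 * q s ≤
    q 0 / b + ∫ s in (0 : ℝ)..t, 2 * a * s / (b + a * s ^ 2) * g s

def R_en : Prop := ∀ (Φ : E3 → ℝ) (ε : ℝ) (n : ℕ), IsAdm Φ → 0 < ε → ∃ M : ℝ,
  ∀ γ : ℝ → Cfg n, Newton Φ ε γ → γ 0 ∈ excl ε n → ∀ t,
    2 * Un Φ ε (γ t) ≤ ∑ k, ‖(γ 0 k).2‖ ^ 2 ∧ ∀ i j, i ≠ j →
      Φ (ε⁻¹ • ((γ t i).1 - (γ t j).1)) ≤ ∑ k, ‖(γ 0 k).2‖ ^ 2 + M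

def R_path : Prop := ∀ (Φ : E3 → ℝ) (B η ε a b : ℝ) (n : ℕ) (γ : ℝ → Cfg n), IsAdm Φ →
  Ctl Φ B η → 0 < ε → 0 < a → 0 < b → Newton Φ ε γ → γ 0 ∈ excl ε n →
  Continuous (fun s => Qn a b s (γ s)) ∧ Continuous (fun s => Ut Φ B ε (γ s)) ∧
  (∀ s, 0 ≤ Ut Φ B ε (γ s) ∧ Ut Φ B ε (γ s) ≤ Qn a b 0 (γ 0) / b + B * n) ∧
  ∀ t, 0 ≤ t → Qn a b t (γ t) / (b + a * t ^ 2) + 2 * Ut Φ B ε (γ t) +
    ∫ s in (0 : ℝ)..t, 2 * a * s / (b + a * s ^ 2) ^ 2 * Qn a b s (γ s) ≤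
    Qn a b 0 (γ 0) / b + 2 * B * Yn ε (γ t) +
      ∫ s in (0 : ℝ)..t, 2 * a * s / (b + a * s ^ 2) / η * Ut Φ B ε (γ s)

def R_dom : Prop := ∀ (Φ : E3 → ℝ) (B η ε a b T : ℝ) (n : ℕ), IsAdm Φ → Ctl Φ B η → 0 < ε →
  0 < a → 0 < b → ∃ C : ℝ, 0 ≤ C ∧ ∀ γ : ℝ → Cfg n, Newton Φ ε γ → γ 0 ∈ excl ε n →
    ∀ s, 0 ≤ s → s ≤ T → Qn a b s (γ s) ≤ C * (Qn a b 0 (γ 0) + 1) ∧
      Ut Φ B ε (γ s) ≤ C * (Qn a b 0 (γ 0) + 1)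

def R_liou : Prop := ∀ (Φ : E3 → ℝ) (ε : ℝ) (n : ℕ) (Fl : ℝ → Cfg n → Cfg n) (t : ℝ), IsAdm Φ →
  0 < ε → IsFlow Φ ε Fl → 0 ≤ t → ∀ A, volume (excl ε n ∩ Fl t ⁻¹' A) ≤ volume A

def R_g2 : Prop := ∀ c a b : ℝ, Par c a b → ∃ K : ℝ, 0 < K ∧ ∀ (t : ℝ) (y : E3) (ε : ℝ), 0 < ε →
  ∫ z in {z : E3 × E3 | ‖z.1 - y‖ ≤ ε}, gau c a b t z ≤ K * ε ^ 3

def R_fub : Prop := ∀ (c a b t M : ℝ) (n : ℕ) (G : Cfg (n + 1) → ℝ), Par c a b → Measurable G →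
  (∀ z, |G z| ≤ M) →
  Integrable (fun z : Cfg n => (∫ w, G (Fin.cons w z) * gau c a b t w) * tens (gau c a b t) z) ∧
  ∫ z, G z * tens (gau c a b t) z =
    ∫ z : Cfg n, (∫ w, G (Fin.cons w z) * gau c a b t w) * tens (gau c a b t) z

def R_one : Prop := ∀ (c a b t r K g : ℝ) (n : ℕ) (z : Cfg n), Par c a b → 0 ≤ g →
  (∀ y : E3, ∫ w in {w : E3 × E3 | ‖w.1 - y‖ ≤ r}, gau c a b t w ≤ K) →
  ∫ w, Real.exp (g * Zu r (Fin.cons w z : Cfg (n + 1))) * gau c a b t w ≤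
    Real.exp (g * Zu r z) * Real.exp ((Real.exp g - 1) * n * K)

def R_Zu : Prop := ∀ (c a b t r K g : ℝ) (n : ℕ), Par c a b → 0 ≤ g → 0 ≤ K →
  (∀ y : E3, ∫ w in {w : E3 × E3 | ‖w.1 - y‖ ≤ r}, gau c a b t w ≤ K) →
  ∫ z : Cfg n, Real.exp (g * Zu r z) * tens (gau c a b t) z ≤
    Real.exp ((Real.exp g - 1) * (n : ℝ) ^ 2 * K)

def R_Zl : Prop := ∀ (c a b t r g : ℝ) (n : ℕ),
  ∫ z : Cfg n, Real.exp (g * Zl r z) * tens (gau c a b t) z =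
    ∫ z : Cfg n, Real.exp (g * Zu r z) * tens (gau c a b t) z

def R_ent : Prop := ∀ (c a b ε t : ℝ) (n : ℕ) (T : Cfg n → Cfg n), Par c a b →
  0 < pn c a b ε n → Measurable T → (∀ A, volume (excl ε n ∩ T ⁻¹' A) ≤ volume A) →
  IntegrableOn (fun z => Qn a b t (T z) * tens (gau c a b 0) z) (excl ε n) →
  ∀ (X : Cfg n → ℝ) (M Λ : ℝ), Measurable X → (∀ z, |X z| ≤ M) →
  ∫ z, Real.exp (X z) * tens (gau c a b t) z ≤ Real.exp Λ →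
  ∫ z in excl ε n, X (T z) * tens (gau c a b 0) z ≤
    pn c a b ε n * Λ + pn c a b ε n * -Real.log (pn c a b ε n) +
      ((∫ z in excl ε n, Qn a b t (T z) * tens (gau c a b 0) z) -
        ∫ z in excl ε n, Qn a b 0 z * tens (gau c a b 0) z)

def R_ey : Prop := ∀ (c a b ε t K g : ℝ) (n : ℕ) (T : Cfg n → Cfg n), Par c a b → 0 < ε →
  0 < pn c a b ε n → Measurable T → (∀ A, volume (excl ε n ∩ T ⁻¹' A) ≤ volume A) →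
  IntegrableOn (fun z => Qn a b t (T z) * tens (gau c a b 0) z) (excl ε n) → 0 ≤ g → 0 ≤ K →
  (∀ y : E3, ∫ w in {w : E3 × E3 | ‖w.1 - y‖ ≤ 2 * ε}, gau c a b t w ≤ K) →
  g * ∫ z in excl ε n, Yn ε (T z) * tens (gau c a b 0) z ≤
    2 * (pn c a b ε n * ((Real.exp g - 1) * (n : ℝ) ^ 2 * K) +
      pn c a b ε n * -Real.log (pn c a b ε n) +
      ((∫ z in excl ε n, Qn a b t (T z) * tens (gau c a b 0) z) -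
        ∫ z in excl ε n, Qn a b 0 z * tens (gau c a b 0) z))

def R_exp : Prop := ∀ (Ω : Type) [MeasurableSpace Ω] (m : Measure Ω) [SFinite m]
  (q u y : ℝ → Ω → ℝ) (D : Ω → ℝ) (a b B η T : ℝ), 0 < a → 0 < b → 0 < η →
  (∀ s, Measurable (q s) ∧ Measurable (u s) ∧ Integrable (y s) m) → Integrable D m →
  (∀ᵐ z ∂m, Continuous (fun s => q s z) ∧ Continuous (fun s => u s z) ∧
    (∀ s, 0 ≤ s → s ≤ T → |q s z| ≤ D z ∧ |u s z| ≤ D z) ∧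
    ∀ t, 0 ≤ t → q t z / (b + a * t ^ 2) + 2 * u t z +
      ∫ s in (0 : ℝ)..t, 2 * a * s / (b + a * s ^ 2) ^ 2 * q s z ≤
      q 0 z / b + 2 * B * y t z + ∫ s in (0 : ℝ)..t, 2 * a * s / (b + a * s ^ 2) / η * u s z) →
  ∀ t, 0 ≤ t → t ≤ T → IntervalIntegrable (fun s => ∫ z, q s z ∂m) volume 0 t ∧
    IntervalIntegrable (fun s => ∫ z, u s z ∂m) volume 0 t ∧ ∫ z, u t z ∂m ≤ ∫ z, D z ∂m ∧
    (∫ z, q t z ∂m) / (b + a * t ^ 2) + 2 * ∫ z, u t z ∂m +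
      ∫ s in (0 : ℝ)..t, 2 * a * s / (b + a * s ^ 2) ^ 2 * ∫ z, q s z ∂m ≤
      (∫ z, q 0 z ∂m) / b + 2 * B * ∫ z, y t z ∂m +
        ∫ s in (0 : ℝ)..t, 2 * a * s / (b + a * s ^ 2) / η * ∫ z, u s z ∂m

def R_gron : Prop := ∀ (u : ℝ → ℝ) (R c M T : ℝ), 0 ≤ R → 0 < c →
  (∀ t, 0 ≤ t → t ≤ T → IntervalIntegrable u volume 0 t ∧ u t ≤ M ∧
    2 * u t ≤ R + c * ∫ s in (0 : ℝ)..t, u s) →
  ∀ t, 0 ≤ t → t ≤ T → R + c * ∫ s in (0 : ℝ)..t, u s ≤ R * Real.exp (c * t)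

def R_alg : Prop := ∀ a b B η T : ℝ, 0 < a → 0 < b → 0 ≤ B → 0 < η → ∃ g C : ℝ, 0 ≤ g ∧ 0 ≤ C ∧
  ∀ (q u y : ℝ → ℝ) (h l M : ℝ), 0 ≤ h → 0 ≤ l →
  (∀ t, 0 ≤ t → t ≤ T → IntervalIntegrable q volume 0 t ∧ IntervalIntegrable u volume 0 t ∧
    0 ≤ u t ∧ u t ≤ M ∧ q 0 - q t ≤ h ∧ g * y t ≤ 2 * (l + h + (q t - q 0)) ∧
    q t / (b + a * t ^ 2) + 2 * u t + ∫ s in (0 : ℝ)..t, 2 * a * s / (b + a * s ^ 2) ^ 2 * q s ≤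
      q 0 / b + 2 * B * y t + ∫ s in (0 : ℝ)..t, 2 * a * s / (b + a * s ^ 2) / η * u s) →
  ∀ t, 0 ≤ t → t ≤ T → q t - q 0 ≤ C * (h + l)

def R_fixI : Prop := ∀ (Φ : E3 → ℝ) (B η ε c a b : ℝ) (n : ℕ) (Fl : ℝ → Cfg n → Cfg n),
  IsAdm Φ → Ctl Φ B η → 0 < ε → Par c a b → IsFlow Φ ε Fl → ∀ t, 0 ≤ t →
  IntegrableOn (fun z => Qn a b t (Fl t z) * tens (gau c a b 0) z) (excl ε n)

def R_fixX : Prop := ∀ (Φ : E3 → ℝ) (B η ε c a b T : ℝ) (n : ℕ) (Fl : ℝ → Cfg n → Cfg n),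
  IsAdm Φ → Ctl Φ B η → 0 < ε → Par c a b → IsFlow Φ ε Fl → ∃ M : ℝ, ∀ q u y : ℝ → ℝ,
  (q = fun s => ∫ z in excl ε n, Qn a b s (Fl s z) * tens (gau c a b 0) z) →
  (u = fun s => ∫ z in excl ε n, Ut Φ B ε (Fl s z) * tens (gau c a b 0) z) →
  (y = fun s => ∫ z in excl ε n, Yn ε (Fl s z) * tens (gau c a b 0) z) →
  q 0 = (∫ z in excl ε n, Qn a b 0 z * tens (gau c a b 0) z) ∧
  ∀ t, 0 ≤ t → t ≤ T → IntervalIntegrable q volume 0 t ∧ IntervalIntegrable u volume 0 t ∧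
    0 ≤ u t ∧ u t ≤ M ∧
    q t / (b + a * t ^ 2) + 2 * u t + ∫ s in (0 : ℝ)..t, 2 * a * s / (b + a * s ^ 2) ^ 2 * q s ≤
      q 0 / b + 2 * B * y t + ∫ s in (0 : ℝ)..t, 2 * a * s / (b + a * s ^ 2) / η * u s

def R_fixA : Prop := ∀ (Φ : E3 → ℝ) (c a b T : ℝ), IsAdm Φ → VirialStable Φ → Par c a b →
  ∃ C : ℝ, 0 ≤ C ∧ ∀ (ε K : ℝ) (n : ℕ) (Fl : ℝ → Cfg n → Cfg n), 0 < ε → 0 ≤ K →
    IsFlow Φ ε Fl → (∀ (t : ℝ) (y : E3),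
      ∫ w in {w : E3 × E3 | ‖w.1 - y‖ ≤ 2 * ε}, gau c a b t w ≤ K) →
    0 < pn c a b ε n → -Real.log (pn c a b ε n) ≤ 2 * (n : ℝ) ^ 2 * K →
    ∀ t, 0 ≤ t → t ≤ T → Good c a b ε t (Fl t) (C * (n : ℝ) ^ 2 * K)

def R_fixC : Prop := ∀ (ε c a b t L : ℝ) (n : ℕ) (T : Cfg n → Cfg n), Par c a b →
  0 < pn c a b ε n → Good c a b ε t T L →
  ∀ (m s : ℕ) (e : Fin m × Fin s ↪ Fin n) (φ : Cfg s → ℝ) (g : ℝ), Measurable φ →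
  (∀ y, |φ y| ≤ 1) → 0 < g →
  ∑ j : Fin m, ∫ z in excl ε n, φ (fun k => T z (e (j, k))) * tens (gau c a b 0) z ≤
    pn c a b ε n * (m * (∫ y, φ y * tens (gau c a b t) y) + m * g / 2 +
      (-Real.log (pn c a b ε n) + L) / g)

def R_fixD : Prop := ∀ (ε c a b t L : ℝ) (n : ℕ) (T : Cfg n → Cfg n), Par c a b →
  0 < pn c a b ε n → Good c a b ε t T L →
  ∀ (m s : ℕ) (φ : Cfg s → ℝ) (g : ℝ), 1 ≤ m → m * s ≤ n → Measurable φ →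
  (∀ y, |φ y| ≤ 1) → 0 < g →
  |(∫ z in excl ε n, (∑ e : Fin s ↪ Fin n, φ (fun k => T z (e k))) * tens (gau c a b 0) z) -
    (∫ y, φ y * tens (gau c a b t) y) * pn c a b ε n * (n.descFactorial s : ℝ)| ≤
    (n.descFactorial s : ℝ) * pn c a b ε n *
      (g / 2 + (-Real.log (pn c a b ε n) + L) / (m * g))

def R_fixE : Prop := ∀ (ε c a b t K C : ℝ) (n : ℕ) (T : Cfg n → Cfg n), 0 < ε → Par c a b →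
  Measurable T → 0 ≤ K → 0 ≤ C →
  (∀ y : E3, ∫ z in {z : E3 × E3 | ‖z.1 - y‖ ≤ ε}, gau c a b 0 z ≤ K) →
  (0 < pn c a b ε n → -Real.log (pn c a b ε n) ≤ 2 * (n : ℝ) ^ 2 * K →
    Good c a b ε t T (C * (n : ℝ) ^ 2 * K)) →
  ∀ (s : ℕ) (φ : Cfg s → ℝ) (g : ℝ), 1 ≤ s → Measurable φ → (∀ y, |φ y| ≤ 1) → 0 < g → g ≤ 1 →
  |(∫ z in excl ε n, (∑ e : Fin s ↪ Fin n, φ (fun k => T z (e k))) * tens (gau c a b 0) z) -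
    (∫ y, φ y * tens (gau c a b t) y) * pn c a b ε n * (n.descFactorial s : ℝ)| ≤
    (n.descFactorial s : ℝ) * pn c a b ε n * (g / 2 + 2 * s * (2 + C) * K / g * n)

def R_scat : Prop := ∀ (Φ : E3 → ℝ) (V ρ V' : E3), IsAdm Φ → V ≠ 0 → Scat Φ V ρ V' → ‖V'‖ = ‖V‖

end Vale.Agent.P119
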