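import Vale.Agent.P119S.Stm

/-! Stability with the count of points having a close neighbour. -/

open MeasureTheory Filter Topology Set
open scoped InnerProductSpace

namespace Vale.Agent.P119

namespace RSubAux

theorem pairSum_eq (Ψ : E3 → ℝ) {n : ℕ} (x : Fin n → E3) :
    pairSum Ψ x = ∑ i, ∑ j, if j = i then 0 else Ψ (x i - x j) := by
  unfold pairSum
  refine Finset.sum_congr rfl fun i _ => ?_
  rw [← Finset.sum_erase_add _ _ (Finset.mem_univ i), if_pos rfl, add_zero]
  exact Finset.sum_congr rfl fun j hj => by rw [if_neg (Finset.ne_of_mem_erase hj)]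

theorem sum_emb {n : ℕ} (S : Finset (Fin n)) (F : Fin n → ℝ) :
    ∑ a : Fin S.card, F (S.orderEmbOfFin rfl a) = ∑ i ∈ S, F i := by
  rw [← Finset.sum_coe_sort S]
  exact Fintype.sum_equiv (S.orderIsoOfFin rfl).toEquiv _ _ fun a => rfl

end RSubAux

open RSubAux in
theorem r_sub (hdens : R_dens) : R_sub := by
  classical
  rintro Ψ ⟨B, hB⟩ h0
  refine ⟨max B 0, le_max_right _ _, fun n x hx => ?_⟩
  set S : Finset (Fin n) := Finset.univ.filter fun i => ∃ j, j ≠ i ∧ ‖x i - x j‖ ≤ 1 with hS
  have out : ∀ i j, i ∉ S ∨ j ∉ S → (if j = i then 0 else Ψ (x i - x j)) = 0 := by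
    intro i j h
    split_ifs with hij
    · rfl
    · refine h0 _ (not_le.1 fun hc => ?_)
      rcases h with h | h
      · exact h (Finset.mem_filter.2 ⟨Finset.mem_univ _, j, hij, hc⟩)
      · exact h (Finset.mem_filter.2 ⟨Finset.mem_univ _, i, Ne.symm hij, by rwa [norm_sub_rev]⟩)
  have e1 : pairSum Ψ (fun a => x (S.orderEmbOfFin rfl a)) = pairSum Ψ x := by
    rw [pairSum_eq, pairSum_eq]
    have h1 : ∀ a : Fin S.card, (∑ b : Fin S.card, if b = a then 0 else
        Ψ (x (S.orderEmbOfFin rfl a) - x (S.orderEmbOfFin rfl b))) =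
        ∑ j, if j = S.orderEmbOfFin rfl a then 0 else Ψ (x (S.orderEmbOfFin rfl a) - x j) := by
      intro a
      rw [← Finset.sum_subset (Finset.subset_univ S) fun j _ hj => out _ j (.inr hj), ← sum_emb S]
      exact Finset.sum_congr rfl fun b _ => by simp only [EmbeddingLike.apply_eq_iff_eq]
    rw [Finset.sum_congr rfl fun a _ => h1 a,
      sum_emb S fun i => ∑ j, if j = i then 0 else Ψ (x i - x j)]
    exact Finset.sum_subset (Finset.subset_univ S) fun i _ hi =>
      Finset.sum_eq_zero fun j _ => out i j (.inl hi)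
  have e2 : -(B * (S.card : ℝ)) ≤ pairSum Ψ x := by
    rw [← e1]
    rcases hx with hx | hx
    · exact hdens Ψ _ _ hx (hB S.card) _
    · exact hB _ _ (hx.comp (S.orderEmbOfFin rfl).injective)
  have nn : ∀ i, 0 ≤ ∑ j ∈ Finset.univ.erase i, max 0 (2 - ‖x i - x j‖) := fun i =>
    Finset.sum_nonneg fun j _ => le_max_left _ _
  have e3 : (S.card : ℝ) ≤ Yc x := by
    unfold Yc
    refine le_trans ?_ (Finset.sum_le_sum_of_subset_of_nonneg (Finset.subset_univ S)
      fun i _ _ => le_min zero_le_one (nn i))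
    rw [Finset.card_eq_sum_ones, Nat.cast_sum]
    refine Finset.sum_le_sum fun i hi => ?_
    obtain ⟨j, hj, hd⟩ := (Finset.mem_filter.1 hi).2
    rw [Nat.cast_one]
    refine le_min le_rfl (le_trans ?_ (Finset.single_le_sum
      (f := fun j => max 0 (2 - ‖x i - x j‖)) (fun j _ => le_max_left _ _)
      (Finset.mem_erase.2 ⟨hj, Finset.mem_univ j⟩)))
    exact le_max_of_le_right (by linarith)
  refine le_trans (neg_le_neg ?_) e2
  exact (mul_le_mul_of_nonneg_right (le_max_left B 0) (Nat.cast_nonneg _)).trans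
    (mul_le_mul_of_nonneg_left e3 (le_max_right _ _))

end Vale.Agent.P119
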