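import Vale.Agent.P119S.Stm

/-! Superstable potentials are stable for the virial. -/

open MeasureTheory Filter Topology Set
open scoped InnerProductSpace

namespace Vale.Agent.P119

namespace RSupAux

theorem vir_eq (Φ : E3 → ℝ) (x : E3) : ⟪x, gradient Φ x⟫_ℝ = fderiv ℝ Φ x x := by
  rw [real_inner_comm]
  exact InnerProductSpace.toDual_symm_apply

theorem bdd {g : E3 → ℝ} {K : Set E3} (hK : IsCompact K) (hg : ContinuousOn g K) :
    ∃ C : ℝ, 0 ≤ C ∧ ∀ x ∈ K, g x ≤ C := by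
  obtain ⟨C, hC⟩ := hK.exists_bound_of_continuousOn hg
  exact ⟨|C|, abs_nonneg C, fun x hx =>
    (le_abs_self _).trans ((hC x hx).trans (le_abs_self C))⟩

theorem bound {Φ : E3 → ℝ} (h : IsAdm Φ) :
    ∃ C : ℝ, 0 ≤ C ∧ ∀ x : E3, x ≠ 0 → ‖x‖ ≤ 1 → ⟪x, gradient Φ x⟫_ℝ ≤ C := by
  obtain ⟨-, h2, -, h4, -⟩ := h
  rcases h4 with h4 | ⟨-, h4⟩
  · have hc : Continuous fun x : E3 => fderiv ℝ Φ x x :=
      (h4.continuous_fderiv (by norm_num)).clm_apply continuous_id
    obtain ⟨C, C0, hC⟩ := bdd (isCompact_closedBall (0 : E3) 1) hc.continuousOn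
    exact ⟨C, C0, fun x _ hx => by
      rw [vir_eq]
      exact hC x (mem_closedBall_zero_iff.2 hx)⟩
  · obtain ⟨δ, hδ, hs⟩ := Metric.mem_nhdsWithin_iff.1 h4
    have hc : ContinuousOn (fun x : E3 => fderiv ℝ Φ x x) {0}ᶜ :=
      (h2.continuousOn_fderiv_of_isOpen isOpen_compl_singleton (by norm_num)).clm_apply
        continuousOn_id
    have hK : IsCompact (Metric.closedBall (0 : E3) 1 ∩ {x | δ ≤ ‖x‖}) :=
      (isCompact_closedBall (0 : E3) 1).inter_right (isClosed_le continuous_const continuous_norm)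
    obtain ⟨C, C0, hC⟩ := bdd hK (hc.mono fun x hx h0 => by
      have h1 : δ ≤ ‖x‖ := hx.2
      rw [mem_singleton_iff.1 h0, norm_zero] at h1
      linarith)
    refine ⟨C, C0, fun x hx0 hx => ?_⟩
    by_cases hd : δ ≤ ‖x‖
    · rw [vir_eq]
      exact hC x ⟨mem_closedBall_zero_iff.2 hx, hd⟩
    · have : x ∈ {x : E3 | ⟪x, gradient Φ x⟫_ℝ ≤ 0} :=
        hs ⟨mem_ball_zero_iff.2 (not_le.1 hd), hx0⟩
      exact le_trans this C0

end RSupAux

theorem r_sup (hpot : R_pot) : R_sup := by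
  rintro Φ h ⟨A, hA, B, hB⟩
  obtain ⟨C, C0, hC⟩ := RSupAux.bound h
  refine ⟨A / (C + 1), by positivity, B, fun n x hx => (hB n x hx).trans ?_⟩
  refine Finset.sum_le_sum fun i _ => Finset.sum_le_sum fun j hj => ?_
  have h0 : x i - x j ≠ 0 := fun e => (Finset.mem_erase.1 hj).1 (hx (sub_eq_zero.1 e)).symm
  refine sub_le_sub_left ?_ _
  split_ifs with h1
  · have h2 : A / (C + 1) * (C + 1) = A := div_mul_cancel₀ _ (by positivity)
    have h3 : 0 ≤ A / (C + 1) := by positivity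
    have h4 := mul_le_mul_of_nonneg_left (hC _ h0 h1) h3
    linarith
  · rw [(hpot Φ h).2.2.1 _ (not_le.1 h1), inner_zero_right, mul_zero]

end Vale.Agent.P119
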