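import Vale.Agent.P119S.Stm

/-! The virial identity and the potential energy. -/

open MeasureTheory Filter Topology Set
open scoped InnerProductSpace

namespace Vale.Agent.P119

namespace RVirAux

theorem swap {n : ℕ} (f : Fin n → Fin n → ℝ) :
    ∑ i, ∑ j ∈ Finset.univ.erase i, f i j = ∑ i, ∑ j ∈ Finset.univ.erase i, f j i :=
  Finset.sum_comm' fun i j => by
    simp only [Finset.mem_univ, Finset.mem_erase, true_and, and_true]
    exact ne_comm

theorem vir {n : ℕ} (y : Fin n → E3) (G : E3 → E3) (hodd : ∀ v, G (-v) = -G v) :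
    ∑ i, ∑ j ∈ Finset.univ.erase i, ⟪y i, G (y i - y j)⟫_ℝ =
      (1 / 2) * pairSum (fun v => ⟪v, G v⟫_ℝ) y := by
  have h1 := swap fun i j => ⟪y i, G (y i - y j)⟫_ℝ
  have h2 : ∑ i, ∑ j ∈ Finset.univ.erase i, ⟪y i, G (y i - y j)⟫_ℝ +
      ∑ i, ∑ j ∈ Finset.univ.erase i, ⟪y j, G (y j - y i)⟫_ℝ =
      pairSum (fun v => ⟪v, G v⟫_ℝ) y := by
    unfold pairSum
    rw [← Finset.sum_add_distrib]
    refine Finset.sum_congr rfl fun i _ => ?_
    rw [← Finset.sum_add_distrib]
    refine Finset.sum_congr rfl fun j _ => ?_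
    have h3 : ⟪y i - y j, G (y i - y j)⟫_ℝ =
        ⟪y i, G (y i - y j)⟫_ℝ - ⟪y j, G (y i - y j)⟫_ℝ := inner_sub_left _ _ _
    rw [← neg_sub (y i) (y j), hodd, inner_neg_right]
    exact (sub_eq_add_neg _ _).symm.trans h3.symm
  linarith

end RVirAux

theorem r_vir (hpot : R_pot) : R_vir := by
  intro Φ ε n hΦ hε
  obtain ⟨_, h2, _, h4, _⟩ := hpot Φ hΦ
  refine ⟨fun x => ?_, fun z hz => ?_, fun z => ?_, ?_⟩
  · have h := RVirAux.vir (fun i => ε⁻¹ • x i) (gradient Φ) h2
    have e : ∀ i, ⟪x i, force Φ ε x i⟫_ℝ = -∑ j ∈ Finset.univ.erase i,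
        ⟪ε⁻¹ • x i, gradient Φ (ε⁻¹ • x i - ε⁻¹ • x j)⟫_ℝ := fun i => by
      unfold force
      rw [inner_neg_right, inner_smul_right, inner_sum, Finset.mul_sum]
      refine congrArg Neg.neg (Finset.sum_congr rfl fun j _ => ?_)
      rw [real_inner_smul_left, smul_sub]
    rw [Finset.sum_congr rfl fun i _ => e i, Finset.sum_neg_distrib, neg_neg]
    exact h
  · unfold Un
    rw [Finset.sum_eq_zero fun i _ => Finset.sum_eq_zero fun j hj => ?_, mul_zero]
    refine hΦ.2.2.1 _ ?_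
    have := hz i j (Finset.ne_of_mem_erase hj).symm
    rw [norm_smul, Real.norm_eq_abs, abs_of_pos (inv_pos.2 hε), ← div_eq_inv_mul,
      one_le_div hε]
    exact this.le
  · unfold Un pairSum
    simp only [smul_sub]
  · unfold Un
    refine Measurable.const_mul (Finset.measurable_sum _ fun i _ =>
      Finset.measurable_sum _ fun j _ => h4.comp ?_) _
    exact Continuous.measurable (by fun_prop)

end Vale.Agent.P119
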