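import Vale.Agent.P119S.Stm

/-! The continuous count of points with a close neighbour. -/

open MeasureTheory Filter Topology Set
open scoped InnerProductSpace

namespace Vale.Agent.P119

namespace RYAux

theorem sum_le {n : ℕ} {f : Fin n → ℝ} (h : ∀ i, f i ≤ 1) : ∑ i, f i ≤ n :=
  (Finset.sum_le_sum fun i _ => h i).trans_eq (by simp)

theorem bd {n : ℕ} (p : Fin n → Prop) {_ : DecidablePred p} :
    |∑ i, if p i then (1 : ℝ) else 0| ≤ n := by
  rw [abs_of_nonneg (Finset.sum_nonneg fun i _ => by split_ifs <;> norm_num)]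
  exact sum_le fun i => by split_ifs <;> norm_num

theorem ms {n : ℕ} (p : Fin n → Prop) (r : ℝ) (i : Fin n) :
    MeasurableSet {z : Cfg n | ∃ j, p j ∧ ‖(z i).1 - (z j).1‖ ≤ r} := by
  rw [ofPred_exists]
  refine MeasurableSet.iUnion fun j => (MeasurableSet.const _).inter ?_
  have c : Continuous fun z : Cfg n => ‖(z i).1 - (z j).1‖ := by fun_prop
  exact (isClosed_le c continuous_const).measurableSet

end RYAux

open RYAux in
theorem r_Y : R_Y := by
  intro ε n hε
  refine ⟨?_, fun z => ⟨?_, sum_le fun i => min_le_left _ _, ?_⟩,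
    fun r => ⟨Finset.measurable_sum _ fun i _ =>
      Measurable.ite (ms _ r i) measurable_const measurable_const, Finset.measurable_sum _ fun i _ =>
      Measurable.ite (ms _ r i) measurable_const measurable_const, fun z => ⟨bd _, bd _⟩⟩⟩
  · unfold Yn Yc
    fun_prop
  · unfold Yn Yc
    exact Finset.sum_nonneg fun i _ =>
      le_min (zero_le_one (α := ℝ)) (Finset.sum_nonneg fun j _ => le_max_left _ _)
  unfold Zu Zl Yn Yc
  rw [← Finset.sum_add_distrib]
  refine Finset.sum_le_sum fun i _ => ?_
  split_ifs with h1 h2 h2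
  · exact (min_le_left _ _).trans (by norm_num)
  · exact (min_le_left _ _).trans (by norm_num)
  · exact (min_le_left _ _).trans (by norm_num)
  refine (min_le_right _ _).trans ((Finset.sum_eq_zero fun j hj => ?_).trans (add_zero _).symm).le
  have h : 2 * ε < ‖(z i).1 - (z j).1‖ := lt_of_not_ge fun h =>
    (lt_or_gt_of_ne (Finset.ne_of_mem_erase hj)).elim (fun k => h2 ⟨j, k, h⟩) fun k => h1 ⟨j, k, h⟩
  rw [← smul_sub, norm_smul, Real.norm_of_nonneg (inv_pos.2 hε).le]
  exact max_eq_left (sub_nonpos.2 ((le_inv_mul_iff₀' hε).2 h.le))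

end Vale.Agent.P119
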