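import Vale.Agent.P119S.Stm

/-! Reversal of the labels. -/

open MeasureTheory Filter Topology Set
open scoped InnerProductSpace

namespace Vale.Agent.P119

theorem r_Zl : R_Zl := by
  intro c a b t r g n
  let e := MeasurableEquiv.piCongrLeft (fun _ : Fin n => E3 × E3) Fin.revPerm
  have he : ∀ (z : Cfg n) i, e z i = z (Fin.rev i) := fun z i => by
    simp [e, MeasurableEquiv.piCongrLeft, Equiv.piCongrLeft_apply_eq_cast]
  rw [← (volume_measurePreserving_piCongrLeft (fun _ : Fin n => E3 × E3) Fin.revPerm).integral_comp'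
    fun z : Cfg n => Real.exp (g * Zu r z) * tens (gau c a b t) z]
  refine integral_congr_ae (.of_forall fun z => ?_)
  have h1 : Zu r (e z) = Zl r z := by
    rw [Zu, Zl, ← Equiv.sum_comp Fin.revPerm]
    refine Finset.sum_congr rfl fun i _ => if_congr ?_ rfl rfl
    simp only [he, Fin.revPerm_apply, Fin.rev_rev]
    exact ⟨fun ⟨j, h, k⟩ => ⟨j.rev, Fin.rev_lt_iff.1 h, k⟩,
      fun ⟨j, h, k⟩ => ⟨j.rev, Fin.rev_lt_rev.2 h, by rwa [Fin.rev_rev]⟩⟩
  have h2 : tens (gau c a b t) (e z) = tens (gau c a b t) z := by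
    simp only [tens, he]
    exact Equiv.prod_comp Fin.revPerm fun i => gau c a b t (z i)
  show _ = Real.exp (g * Zu r (e z)) * tens (gau c a b t) (e z)
  rw [h1, h2]

end Vale.Agent.P119
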