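import Vale.Agent.P119S.Stm

/-! Exponential moments of the number of close pairs. -/

open MeasureTheory Filter Topology Set
open scoped InnerProductSpace

namespace Vale.Agent.P119

namespace RZuAux

theorem bd (hY : R_Y) {g : ℝ} (hg : 0 ≤ g) (r : ℝ) (n : ℕ) :
    Measurable (fun z : Cfg n => Real.exp (g * Zu r z)) ∧
      ∀ z : Cfg n, |Real.exp (g * Zu r z)| ≤ Real.exp (g * n) := by
  obtain ⟨h1, -, h2⟩ := (hY 1 n one_pos).2.2 r
  refine ⟨Real.measurable_exp.comp (h1.const_mul g), fun z => ?_⟩
  rw [abs_of_pos (Real.exp_pos _)]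
  exact Real.exp_le_exp.2 (mul_le_mul_of_nonneg_left ((le_abs_self _).trans (h2 z).1) hg)

end RZuAux

theorem r_Zu (hfub : R_fub) (hone : R_one) (hY : R_Y) (hsg3 : S_g3) : R_Zu := by
  intro c a b t r K g n hp hg hK hw
  have he : 0 ≤ Real.exp g - 1 := by linarith [Real.add_one_le_exp g]
  induction n with
  | zero =>
    have h := ((hsg3 c a b 0 hp).1 t).2.2.2.2
    simp only [Zu, Finset.univ_eq_empty, Finset.sum_empty, mul_zero, Real.exp_zero, one_mul]
    rw [h]
    simp
  | succ n ih =>
    obtain ⟨m1, b1⟩ := RZuAux.bd hY hg r (n + 1)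
    obtain ⟨m0, b0⟩ := RZuAux.bd hY hg r n
    obtain ⟨i1, e1⟩ := hfub c a b t _ n _ hp m1 b1
    have i0 : Integrable fun z : Cfg n => Real.exp (g * Zu r z) * tens (gau c a b t) z :=
      ((hsg3 c a b n hp).1 t).2.2.2.1.bdd_mul m0.aestronglyMeasurable
        (ae_of_all _ fun z => b0 z)
    rw [e1]
    calc _ ≤ ∫ z : Cfg n, Real.exp ((Real.exp g - 1) * n * K) *
          (Real.exp (g * Zu r z) * tens (gau c a b t) z) := by
          refine integral_mono i1 (i0.const_mul _) fun z => ?_
          have h1 := mul_le_mul_of_nonneg_right (hone c a b t r K g n z hp hg hw)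
            (tens_pos hp.1 a b t z).le
          refine h1.trans (le_of_eq ?_)
          ring
      _ ≤ Real.exp ((Real.exp g - 1) * n * K) * Real.exp ((Real.exp g - 1) * (n : ℝ) ^ 2 * K) := by
          rw [integral_const_mul]
          exact mul_le_mul_of_nonneg_left ih (Real.exp_pos _).le
      _ ≤ _ := by
          rw [← Real.exp_add]
          refine Real.exp_le_exp.2 ?_
          have h2 : 0 ≤ (Real.exp g - 1) * K * ((n : ℝ) + 1) := by positivity
          push_cast
          nlinarith

end Vale.Agent.P119
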