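import Vale.Agent.P119.Top
import Vale.Agent.P119S.Exp
import Vale.Agent.P119S.Gron
import Vale.Agent.P119S.Alg
import Vale.Agent.P119S.Dens
import Vale.Agent.P119S.Sub
import Vale.Agent.P119S.Pot
import Vale.Agent.P119S.Rep
import Vale.Agent.P119S.Sup
import Vale.Agent.P119S.DU
import Vale.Agent.P119S.Vir
import Vale.Agent.P119S.Ctl
import Vale.Agent.P119S.Y
import Vale.Agent.P119S.Ode
import Vale.Agent.P119S.En
import Vale.Agent.P119S.Path
import Vale.Agent.P119S.Dom
import Vale.Agent.P119S.Liou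
import Vale.Agent.P119S.G2
import Vale.Agent.P119S.Fub
import Vale.Agent.P119S.One
import Vale.Agent.P119S.Zu
import Vale.Agent.P119S.Zl
import Vale.Agent.P119S.Ent
import Vale.Agent.P119S.Ey
import Vale.Agent.P119S.FixI
import Vale.Agent.P119S.FixX
import Vale.Agent.P119S.FixA
import Vale.Agent.P119S.FixC
import Vale.Agent.P119S.FixD
import Vale.Agent.P119S.FixE
import Vale.Agent.P119S.Scat
import Vale.Agent.P119S.Main

namespace Vale.Agent.P119

theorem u_exp : R_exp := r_exp t_swap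
theorem u_gron : R_gron := r_gron
theorem u_alg : R_alg := r_alg u_gron
theorem u_dens : R_dens := r_dens
theorem u_sub : R_sub := r_sub u_dens
theorem u_pot : R_pot := r_pot
theorem u_rep : R_rep := r_rep t_pot
theorem u_sup : R_sup := r_sup u_pot
theorem u_dU : R_dU := r_dU u_pot
theorem u_vir : R_vir := r_vir u_pot
theorem u_ctl : R_ctl := r_ctl u_pot u_sub u_vir
theorem u_Y : R_Y := r_Y
theorem u_ode : R_ode := r_ode
theorem u_en : R_en := r_en u_pot u_dU u_vir t_dQ
theorem u_path : R_path := r_path u_dU u_vir u_Y u_ode u_en t_dQ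
theorem u_dom : R_dom := r_dom u_path u_Y
theorem u_liou : R_liou := r_liou t_liouCfg t_lip t_cut u_en
theorem u_g2 : R_g2 := r_g2
theorem u_fub : R_fub := r_fub t_g3 t_g1
theorem u_one : R_one := r_one t_g1
theorem u_Zu : R_Zu := r_Zu u_fub u_one u_Y t_g3
theorem u_Zl : R_Zl := r_Zl
theorem u_ent : R_ent := r_ent t_g3 t_ent
theorem u_ey : R_ey := r_ey u_Y u_Zu u_Zl u_ent t_g3
theorem u_fixI : R_fixI := r_fixI u_dom t_g3
theorem u_fixX : R_fixX := r_fixX u_path u_dom u_exp u_vir u_Y t_g3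
theorem u_fixA : R_fixA := r_fixA u_ctl u_alg u_fixI u_fixX u_liou u_ent u_ey t_g3
theorem u_fixC : R_fixC := r_fixC t_g1 t_g3 t_pi t_hoef u_ent
theorem u_fixD : R_fixD := r_fixD t_g3 t_perm u_fixC
theorem u_fixE : R_fixE := r_fixE t_p t_plow u_fixD t_triv
theorem u_scat : R_scat := r_scat u_pot
theorem u_main : R_main := r_main u_g2 t_p u_fixA u_fixE t_triv t_gc

end Vale.Agent.P119
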